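import Vale.Agent.P263.GC.Comm
import Vale.Agent.P263.G.Free

/-! # P263, block GC: right and left multiplication by the vertex `τ` on the telescope `MInf` -/

namespace Vale.Agent.P263.GC

open Vale.Agent.P263.S Vale.Agent.P263.E Vale.Agent.P263.G

/-- the Barratt-Eccles monoid as a simplicial set -/
abbrev MS : SS where
  obj := M
  map θ F := F.map θ
  map_id F := M.map_id F
  map_comp f g F := (M.map_map (⇑f) (⇑g) F).symm

/-- its group completion as a simplicial set -/
noncomputable abbrev UMS : SS where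
  obj := UM
  map θ g := UM.map θ g
  map_id g := UM.map_id g
  map_comp f g x := (UM.map_map (⇑f) (⇑g) x).symm

/-- the telescope as a simplicial set -/
noncomputable abbrev MInfS : SS where
  obj q := MInf q
  map θ g := ⟨UM.map θ g.1, MInf.map g.2 θ⟩
  map_id g := Subtype.ext (UM.map_id g.1)
  map_comp f g x := Subtype.ext (UM.map_map (⇑f) (⇑g) x.1).symm

/-- the inclusion of the telescope -/
noncomputable def incS : SS.Map MInfS UMS where
  app g := g.1
  nat _ _ := rfl

/-- the copies of `M` in the telescope -/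
noncomputable def jn (n : ℕ) : SS.Map MS MInfS where
  app {p} F := ⟨(t p)⁻¹ ^ n * ι F, mem_MInf_iff.2 ⟨n, F, rfl⟩⟩
  nat {p q} f x := Subtype.ext (by
    show (t p)⁻¹ ^ n * ι (M.map f x) = UM.map f ((t q)⁻¹ ^ n * ι x)
    rw [map_mul, map_pow, map_inv, map_t, UM.map_ι])

theorem jn_val (n : ℕ) {p : ℕ} (F : M p) : ((jn n).app F : MInf p).1 = (t p)⁻¹ ^ n * ι F := rfl

theorem jn_inj (n : ℕ) : (jn n).Inj := by
  intro p F G h
  have h1 := congrArg Subtype.val h
  rw [jn_val, jn_val] at h1
  exact ι_injective (mul_left_cancel h1)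

theorem jn_add (m n : ℕ) {p : ℕ} (F : M p) :
    (jn m).app F = (jn (m + n)).app (M.tau p ^ n * F : M p) := by
  apply Subtype.ext
  rw [jn_val, jn_val, map_mul, map_pow, pow_add, mul_assoc]
  congr 1
  rw [show (ι (M.tau p) : UM p) = t p from rfl, inv_pow, inv_mul_cancel_left]

theorem exists_jn (p : ℕ) (S : Finset (MInfS.obj p)) :
    ∃ n, ∀ x ∈ S, ∃ m, (jn n).app m = x := by
  classical
  induction S using Finset.induction_on with
  | empty => exact ⟨0, by simp⟩
  | insert a S _ ih =>
    obtain ⟨n, hn⟩ := ih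
    obtain ⟨m, F, hF⟩ := mem_MInf_iff.1 a.2
    refine ⟨m + n, fun x hx => ?_⟩
    rcases Finset.mem_insert.1 hx with rfl | hx
    · exact ⟨_, by rw [← jn_add]; exact Subtype.ext hF.symm⟩
    · obtain ⟨G, rfl⟩ := hn x hx
      refine ⟨M.tau p ^ m * G, ?_⟩
      rw [add_comm m n, ← jn_add]

/-- right multiplication by `τ` on the monoid -/
def RM : SS.Map MS MS where
  app {p} F := (F * M.tau p : M p)
  nat {p q} f F := by
    show M.map f F * M.tau p = M.map f (F * M.tau q)
    rw [M.map_mul, M.map_tau]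

/-- left multiplication by `τ` on the monoid -/
def LM : SS.Map MS MS where
  app {p} F := (M.tau p * F : M p)
  nat {p q} f F := by
    show M.tau p * M.map f F = M.map f (M.tau q * F)
    rw [M.map_mul, M.map_tau]

/-- right multiplication by `τ` on the telescope -/
noncomputable def RI : SS.Map MInfS MInfS where
  app {p} g := ⟨g.1 * t p, MInf.mul g.2 (M.tau p)⟩
  nat {p q} f g := Subtype.ext (by
    show UM.map f g.1 * t p = UM.map f (g.1 * t q)
    rw [map_mul, map_t])

/-- left multiplication by `τ` on the telescope -/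
noncomputable def LI : SS.Map MInfS MInfS where
  app {p} g := ⟨t p * g.1, MInf.t_mul g.2⟩
  nat {p q} f g := Subtype.ext (by
    show t p * UM.map f g.1 = UM.map f (t q * g.1)
    rw [map_mul, map_t])

/-- left multiplication by `τ⁻¹` on the telescope -/
noncomputable def LI' : SS.Map MInfS MInfS where
  app {p} g := ⟨(t p)⁻¹ * g.1, MInf.t_inv_mul g.2⟩
  nat {p q} f g := Subtype.ext (by
    show (t p)⁻¹ * UM.map f g.1 = UM.map f ((t q)⁻¹ * g.1)
    rw [map_mul, map_inv, map_t])

theorem RI_val {p : ℕ} (g : MInf p) : (RI.app g : MInf p).1 = g.1 * t p := rfl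

theorem LI_val {p : ℕ} (g : MInf p) : (LI.app g : MInf p).1 = t p * g.1 := rfl

theorem LI'_val {p : ℕ} (g : MInf p) : (LI'.app g : MInf p).1 = (t p)⁻¹ * g.1 := rfl

@[simp] theorem LI_LI' {p : ℕ} (g : MInf p) : LI.app (LI'.app g) = g :=
  Subtype.ext (by rw [LI_val, LI'_val, mul_inv_cancel_left])

@[simp] theorem LI'_LI {p : ℕ} (g : MInf p) : LI'.app (LI.app g) = g :=
  Subtype.ext (by rw [LI'_val, LI_val, inv_mul_cancel_left])

theorem RI_jn (n p : ℕ) (F : M p) : RI.app ((jn n).app F) = (jn n).app (RM.app F) := by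
  apply Subtype.ext
  rw [RI_val, jn_val, jn_val]
  show _ * t p = _ * ι (F * M.tau p)
  rw [map_mul, mul_assoc]
  rfl

theorem LI_jn (n p : ℕ) (F : M p) : LI.app ((jn n).app F) = (jn n).app (LM.app F) := by
  apply Subtype.ext
  rw [LI_val, jn_val, jn_val]
  show t p * _ = _ * ι (M.tau p * F)
  have h : t p * (t p)⁻¹ ^ n = (t p)⁻¹ ^ n * t p :=
    ((Commute.refl (t p)).inv_left.pow_left n).eq.symm
  rw [map_mul, ← mul_assoc, h, mul_assoc]
  rfl

/-- the homotopy between right and left multiplication by `τ` -/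
def HM (p : ℕ) (θ : Op p 1) (F : M p) : M p := F.hom (fun i => decide (θ i = 0))

theorem HM_nat {p q : ℕ} (α : Op p q) (θ : Op q 1) (F : M q) :
    (HM q θ F).map α = HM p (θ.comp α) (F.map α) := by
  rw [HM, HM, M.map_hom]
  rfl

theorem HM_c1 (p : ℕ) (F : M p) : HM p (c1 p) F = F * M.tau p := by
  rw [← M.hom_false, HM]
  simp only [c1_val]
  rfl

theorem HM_c0 (p : ℕ) (F : M p) : HM p (c0 p) F = M.tau p * F := by
  rw [← M.hom_true, HM]
  simp only [c0_val]
  rfl

/-- **Right and left multiplication by `τ` agree on the cohomology of the telescope.** -/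
theorem kmInf {k : Type} [Field k] (p : ℕ) (f : MInf p → k)
    (hf : (show (SS.F k MInfS).obj p from f) ∈ (SS.F k MInfS).Z p) :
    (show (SS.F k MInfS).obj p from fun x : MInf p => f (RI.app x) - f (LI.app x)) ∈
      (SS.F k MInfS).Bd p :=
  km jn jn_inj exists_jn RM LM RI LI RI_jn LI_jn HM (fun α θ F => HM_nat α θ F)
    (fun p F => HM_c1 p F) (fun p F => HM_c0 p F) p f hf

end Vale.Agent.P263.GC
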