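import Vale.Agent.P263.GC.Tele
import Vale.Agent.P263.GC.CommM

/-!
# P263, block GC: the component of degree zero of `UM` and the stages `M(N)`

`MN N` : the elements of degree `N` of the Barratt-Eccles monoid, `UM0` : the elements of degree
`0` of its group completion, `uN N : MN N → UM0`, `F ↦ t^(-N) * ι F`.
-/

namespace Vale.Agent.P263.GC

open Vale.Agent.P263.S Vale.Agent.P263.E Vale.Agent.P263.G

variable {R : Type} [CommRing R]

/-! ### relative vanishing -/

section rel

variable {X Y : SS}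

/-- `H^j(Y, X) = 0` for an injective map `X → Y` -/
def RelAc (R : Type) [CommRing R] (s : SS.Map X Y) (j : ℕ) : Prop :=
  ∀ f ∈ (SS.F R Y).Z j, (s.pull (R := R)).app j f = 0 →
    (j = 0 → f = 0) ∧ ∀ j', (e : j' + 1 = j) →
      ∃ h : (SS.F R Y).obj j', e ▸ (SS.F R Y).d j' h = f ∧ (s.pull (R := R)).app j' h = 0

theorem RelAc.zero {s : SS.Map X Y} (h : RelAc R s 0) {f : (SS.F R Y).obj 0}
    (hf : f ∈ (SS.F R Y).Z 0) (h0 : (s.pull (R := R)).app 0 f = 0) : f = 0 := (h f hf h0).1 rfl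

theorem RelAc.succ {s : SS.Map X Y} {j : ℕ} (h : RelAc R s (j + 1)) {f : (SS.F R Y).obj (j + 1)}
    (hf : f ∈ (SS.F R Y).Z (j + 1)) (h0 : (s.pull (R := R)).app (j + 1) f = 0) :
    ∃ g : (SS.F R Y).obj j, (SS.F R Y).d j g = f ∧ (s.pull (R := R)).app j g = 0 :=
  (h f hf h0).2 j rfl

theorem RelAc.of_zero {s : SS.Map X Y} (h : ∀ f ∈ (SS.F R Y).Z 0,
    (s.pull (R := R)).app 0 f = 0 → f = 0) : RelAc R s 0 :=
  fun f hf h0 => ⟨fun _ => h f hf h0, fun _ e => absurd e (Nat.succ_ne_zero _)⟩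

theorem RelAc.of_succ {s : SS.Map X Y} {j : ℕ} (h : ∀ f ∈ (SS.F R Y).Z (j + 1),
    (s.pull (R := R)).app (j + 1) f = 0 →
      ∃ g : (SS.F R Y).obj j, (SS.F R Y).d j g = f ∧ (s.pull (R := R)).app j g = 0) :
    RelAc R s (j + 1) :=
  fun f hf h0 => ⟨fun e => absurd e (Nat.succ_ne_zero _), fun j' e => by
    obtain rfl : j' = j := Nat.succ_injective e
    exact h f hf h0⟩

/-- vanishing of the relative cohomology in degree `j` gives injectivity in degree `j` -/
theorem RelAc.injH {s : SS.Map X Y} (hs : s.Inj) {j : ℕ} (h : RelAc R s j) : InjH R s j := by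
  intro f hf hb
  cases j with
  | zero =>
      rw [CosMod.mem_Bd_zero] at hb ⊢
      exact h.zero hf hb
  | succ j =>
      obtain ⟨u, hu⟩ := hb
      obtain ⟨v, hv⟩ := hs.pull_surjective (R := R) j u
      obtain ⟨g, hg, _⟩ := h.succ (f := f - (SS.F R Y).d j v)
        (Submodule.sub_mem _ hf (CosMod.Bd_le_Z _ _ (CosMod.d_mem_Bd _ v)))
        (by rw [map_sub, Hom.app_d, hv, hu, sub_self])
      exact ⟨g + v, by rw [map_add, hg, sub_add_cancel]⟩

/-- vanishing of the relative cohomology in degree `j + 1` gives surjectivity in degree `j` -/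
theorem RelAc.surjH {s : SS.Map X Y} (hs : s.Inj) {j : ℕ} (h : RelAc R s (j + 1)) :
    SurjH R s j := by
  intro f hf
  obtain ⟨v, hv⟩ := hs.pull_surjective (R := R) j f
  obtain ⟨g, hg, hg0⟩ := h.succ (f := (SS.F R Y).d j v)
    (by rw [CosMod.mem_Z]; exact CosMod.d_d _ _ _)
    (by rw [Hom.app_d, hv]; exact CosMod.mem_Z.1 hf)
  refine ⟨v - g, ?_, ?_⟩
  · rw [CosMod.mem_Z, map_sub, hg, sub_self]
  · rw [map_sub, hv, hg0, sub_zero, sub_self]
    exact zero_mem _

theorem RelAc.bij {s : SS.Map X Y} (hs : s.Inj) (h : ∀ j, RelAc R s j) (j : ℕ) :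
    Function.Bijective ((s.pull (R := R)).mapH j) :=
  ⟨(injH_iff _ _).1 ((h j).injH hs), (surjH_iff _ _).1 ((h (j + 1)).surjH hs)⟩

end rel

/-! ### the simplicial sets -/

variable {p q : ℕ}

/-- the elements of degree `N` of the Barratt-Eccles monoid -/
abbrev MN (N : ℕ) : SS where
  obj q := {F : M q // F.deg = N}
  map θ F := ⟨F.1.map θ, by rw [M.deg_map, F.2]⟩
  map_id F := Subtype.ext (M.map_id F.1)
  map_comp f g F := Subtype.ext (M.map_map (⇑f) (⇑g) F.1).symm

instance finMN (N q : ℕ) : Finite ((MN N).obj q) := by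
  classical
  let S : Finset (Finset (Pt q)) :=
    (Fintype.piFinset fun _ : Fin (q + 1) => Finset.range N).powerset
  have h : ∀ F : (MN N).obj q, F.1.pts ∈ S := by
    intro F
    rw [Finset.mem_powerset]
    intro x hx
    rw [Fintype.mem_piFinset]
    intro i
    rw [Finset.mem_range]
    have := F.1.lt_deg hx i
    rwa [F.2] at this
  exact Finite.of_injective (fun F : (MN N).obj q => (⟨F.1.pts, h F⟩ : S)) (by
    intro F G hFG
    exact Subtype.ext (M.ext (congrArg Subtype.val hFG)))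

/-- left multiplication by `τ` -/
def sN (N : ℕ) : SS.Map (MN N) (MN (N + 1)) where
  app {p} F := ⟨M.tau p * F.1, by rw [M.deg_mul, M.deg_tau, F.2, add_comm]⟩
  nat {p q} f F := Subtype.ext (by
    show M.tau p * M.map f F.1 = M.map f (M.tau q * F.1)
    rw [M.map_mul, M.map_tau])

/-- the component of degree `0` of the group completion -/
noncomputable abbrev UM0 : SS where
  obj q := {g : UM q // UM.dg g = 0}
  map θ g := ⟨UM.map θ g.1, by rw [UM.dg_map, g.2]⟩
  map_id g := Subtype.ext (UM.map_id g.1)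
  map_comp f g x := Subtype.ext (UM.map_map (⇑f) (⇑g) x.1).symm

/-- the component of degree `0` of the telescope -/
noncomputable abbrev MInf0 : SS where
  obj q := {g : UM q // g ∈ MInf q ∧ UM.dg g = 0}
  map θ g := ⟨UM.map θ g.1, MInf.map g.2.1 θ, by rw [UM.dg_map, g.2.2]⟩
  map_id g := Subtype.ext (UM.map_id g.1)
  map_comp f g x := Subtype.ext (UM.map_map (⇑f) (⇑g) x.1).symm

/-- the inclusion -/
noncomputable def incU : SS.Map MInf0 UM0 where
  app g := ⟨g.1, g.2.2⟩
  nat _ _ := rfl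

theorem incU_inj : incU.Inj := fun p _ _ h =>
  Subtype.ext (congrArg (fun g : UM0.obj p => (g.1 : UM p)) h)

theorem dg_tF {N : ℕ} {F : M p} (h : F.deg = N) : UM.dg ((t p)⁻¹ ^ N * ι F) = 0 := by
  have key : ∀ n : ℕ, UM.dg ((t p)⁻¹ ^ n) = - (n : ℤ) := by
    intro n
    induction n with
    | zero => simp
    | succ n ih => rw [pow_succ, UM.dg_mul, ih, UM.dg_inv, dg_t]; push_cast; ring
  rw [UM.dg_mul, key, UM.dg_ι, h]
  simp

/-- `F ↦ t^(-N) * ι F` into the telescope -/
noncomputable def iN (N : ℕ) : SS.Map (MN N) MInf0 where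
  app {p} F := ⟨(t p)⁻¹ ^ N * ι F.1, mem_MInf_iff.2 ⟨N, F.1, rfl⟩, dg_tF F.2⟩
  nat {p q} f x := Subtype.ext (by
    show (t p)⁻¹ ^ N * ι (M.map f x.1) = UM.map f ((t q)⁻¹ ^ N * ι x.1)
    rw [map_mul, map_pow, map_inv, map_t, UM.map_ι])

/-- `F ↦ t^(-N) * ι F` -/
noncomputable def uN (N : ℕ) : SS.Map (MN N) UM0 := incU.comp (iN N)

@[simp] theorem iN_val (N : ℕ) (F : (MN N).obj p) :
    ((iN N).app F).1 = (t p)⁻¹ ^ N * ι F.1 := rfl

@[simp] theorem uN_val (N : ℕ) (F : (MN N).obj p) :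
    ((uN N).app F).1 = (t p)⁻¹ ^ N * ι F.1 := rfl

theorem iN_inj (N : ℕ) : (iN N).Inj := by
  intro p F G h
  have h1 := congrArg Subtype.val h
  rw [iN_val, iN_val] at h1
  exact Subtype.ext (ι_injective (mul_left_cancel h1))

theorem uN_inj (N : ℕ) : (uN N).Inj := fun p _ _ h => iN_inj N p (incU_inj p h)

theorem iN_sN (N : ℕ) (F : (MN N).obj p) : (iN (N + 1)).app ((sN N).app F) = (iN N).app F := by
  apply Subtype.ext
  rw [iN_val, iN_val]
  show (t p)⁻¹ ^ (N + 1) * ι (M.tau p * F.1) = _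
  rw [map_mul, pow_succ, mul_assoc]
  congr 1
  show (t p)⁻¹ * (t p * _) = _
  rw [inv_mul_cancel_left]

/-- the telescope as a union -/
noncomputable abbrev teleU : Union where
  X := MN
  T := MInf0
  s := sN
  i := iN
  i_s N _ F := iN_sN N F
  i_inj := iN_inj
  union p x := by
    obtain ⟨n, F, hF⟩ := mem_MInf_iff.1 x.2.1
    have hd : F.deg = n := by
      have h0 := x.2.2
      rw [hF] at h0
      have key : UM.dg ((t p)⁻¹ ^ n * ι (M.tau p ^ n)) = 0 := dg_tF (by
        have : ∀ m : ℕ, (M.tau p ^ m).deg = m := by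
          intro m
          induction m with
          | zero => simp
          | succ m ih => rw [pow_succ, M.deg_mul, ih, M.deg_tau]
        exact this n)
      rw [UM.dg_mul] at h0 key
      rw [UM.dg_ι] at h0 key
      have : ∀ m : ℕ, (M.tau p ^ m).deg = m := by
        intro m
        induction m with
        | zero => simp
        | succ m ih => rw [pow_succ, M.deg_mul, ih, M.deg_tau]
      rw [this] at key
      have e : (F.deg : ℤ) = n := by linarith
      exact_mod_cast e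
    exact ⟨n, ⟨F, hd⟩, Subtype.ext hF.symm⟩

theorem uN_pull {k : Type} [Field k] (N : ℕ) : (uN N).pull (R := k) =
    ((iN N).pull (R := k)).comp (incU.pull (R := k)) := rfl

/-! ### the range theorem -/

/-- from the relative vanishing for `UM` to the relative vanishing for the components -/
theorem relAc_incU {k : Type} [Field k] (h : ∀ j, RelAc k incS j) (j : ℕ) : RelAc k incU j := by
  classical
  -- extension by zero
  have ext : ∀ (i : ℕ) (f : (SS.F k UM0).obj i), ∃ f' : (SS.F k UMS).obj i,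
      (∀ g : UM0.obj i, f' g.1 = f g) ∧ ∀ g : UM i, UM.dg g ≠ 0 → f' g = 0 := by
    intro i f
    refine ⟨fun g => if hg : UM.dg g = 0 then f ⟨g, hg⟩ else 0, fun g => ?_, fun g hg => ?_⟩
    · show (if hg : UM.dg g.1 = 0 then f ⟨g.1, hg⟩ else 0) = f g
      rw [dif_pos g.2]
    · show (if hg : UM.dg g = 0 then f ⟨g, hg⟩ else 0) = 0
      rw [dif_neg hg]
  have key : ∀ (f : (SS.F k UM0).obj j), f ∈ (SS.F k UM0).Z j →
      (incU.pull (R := k)).app j f = 0 → ∃ f' : (SS.F k UMS).obj j, f' ∈ (SS.F k UMS).Z j ∧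
        (incS.pull (R := k)).app j f' = 0 ∧ ∀ g : UM0.obj j, f' g.1 = f g := by
    intro f hf h0
    obtain ⟨f', h1, h2⟩ := ext j f
    refine ⟨f', ?_, ?_, h1⟩
    · rw [CosMod.mem_Z]
      funext g
      rw [SS.F_d]
      by_cases hg : UM.dg g = 0
      · have e0 := congrFun (CosMod.mem_Z.1 hf) (⟨g, hg⟩ : UM0.obj (j + 1))
        have e1 := (SS.F_d f (⟨g, hg⟩ : UM0.obj (j + 1))).symm.trans e0
        refine Eq.trans (Finset.sum_congr rfl fun i _ => ?_) e1
        exact congrArg (sn i) (h1 (UM0.map (dl j i) ⟨g, hg⟩))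
      · rw [show (0 : (SS.F k UMS).obj (j + 1)) g = (0 : k) from rfl]
        refine Finset.sum_eq_zero fun i _ => ?_
        have : f' (UMS.map (dl j i) g) = 0 := h2 _ (by
          show ¬ UM.dg (UM.map (dl j i) g) = 0
          rw [UM.dg_map]; exact hg)
        rw [this]
        simp [sn]
    · funext g
      show f' g.1 = 0
      by_cases hg : UM.dg g.1 = 0
      · have := congrFun h0 (⟨g.1, g.2, hg⟩ : MInf0.obj j)
        have e : f' g.1 = f (incU.app (⟨g.1, g.2, hg⟩ : MInf0.obj j)) :=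
          h1 (⟨g.1, hg⟩ : UM0.obj j)
        rw [e]
        exact this
      · exact h2 _ hg
  cases j with
  | zero =>
      apply RelAc.of_zero
      intro f hf h0
      obtain ⟨f', h1, h2, h3⟩ := key f hf h0
      funext g
      rw [← h3 g, (h 0).zero h1 h2]
      rfl
  | succ j =>
      apply RelAc.of_succ
      intro f hf h0
      obtain ⟨f', h1, h2, h3⟩ := key f hf h0
      obtain ⟨u, hu1, hu2⟩ := (h (j + 1)).succ h1 h2
      refine ⟨fun g => u g.1, ?_, ?_⟩
      · funext g
        have e1 := SS.F_d (X := UM0) (fun g : UM0.obj j => u g.1) g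
        have e2 := SS.F_d (X := UMS) u g.1
        have e3 := congrFun hu1 g.1
        exact e1.trans (e2.symm.trans (e3.trans (h3 g)))
      · funext g
        exact congrFun hu2 (⟨g.1, g.2.1⟩ : MInfS.obj j)

/-- **The range theorem**: `H^j(UM0) → H^j(M(N))` is bijective for `j ≤ D` and `N` large. -/
theorem range {k : Type} [Field k] (hrel : ∀ j, RelAc k incS j)
    (hs : ∀ j, ∃ n0, ∀ n, n0 ≤ n → Function.Injective (((sN n).pull (R := k)).mapH j)) (D : ℕ) :
    ∃ N0, ∀ N, N0 ≤ N → ∀ j, j ≤ D → Function.Bijective (((uN N).pull (R := k)).mapH j) := by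
  have h1 : ∀ j, ∃ n1, ∀ n, n1 ≤ n → Function.Bijective (((sN n).pull (R := k)).mapH j) := by
    intro j
    obtain ⟨n0, h0⟩ := hs j
    obtain ⟨N, _, hN⟩ := ev_bij (fun n => (SS.F k (MN n)).H j)
      (fun n => ((sN n).pull (R := k)).mapH j) n0 h0
    exact ⟨N, hN⟩
  choose n1 hn1 using h1
  refine ⟨(Finset.range (D + 1)).sup n1, fun N hN j hj => ?_⟩
  have le : ∀ i, i ≤ D → n1 i ≤ N := fun i hi =>
    (Finset.le_sup (f := n1) (Finset.mem_range.2 (Nat.lt_succ_of_le hi))).trans hN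
  have hb : Function.Bijective (((iN N).pull (R := k)).mapH j) :=
    teleU.bij (N := N) (fun n hn => hn1 j n ((le j hj).trans hn))
      (fun n hn j' hj' => (hn1 j' n ((le j' (by omega)).trans hn)).2)
  have hc := RelAc.bij incU_inj (relAc_incU hrel) j
  rw [uN_pull]
  have e : (⇑((((iN N).pull (R := k)).comp (incU.pull (R := k))).mapH j)) =
      ⇑(((iN N).pull (R := k)).mapH j) ∘ ⇑((incU.pull (R := k)).mapH j) :=
    funext fun x => Hom.mapH_comp _ _ j x
  rw [e]
  exact hb.comp hc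

end Vale.Agent.P263.GC
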