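import Vale.Agent.P263.GC.RangeRel

/-!
# P263, block GC: `MN N` as the quotient of `E Σ_N`

`rk e` : the set of rank vectors of a tuple of permutations `e i : Perm (Fin N)`.
-/

namespace Vale.Agent.P263.GC

open Vale.Agent.P263.S Vale.Agent.P263.E Vale.Agent.P263.G

variable {N p q : ℕ}

/-- tuples of permutations -/
abbrev EP (N q : ℕ) : Type := Fin (q + 1) → Equiv.Perm (Fin N)

/-- the rank vector of a point -/
def rkv (e : EP N q) (x : Fin N) : Pt q := fun i => (e i x : ℕ)

theorem rkv_inj (e : EP N q) {x y : Fin N} {i : Fin (q + 1)} (h : rkv e x i = rkv e y i) :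
    x = y := (e i).injective (Fin.ext h)

/-- the set of rank vectors -/
def rk (e : EP N q) : (MN N).obj q :=
  ⟨{ pts := Finset.univ.image (rkv e)
     inj := by
        intro x hx y hy i h
        obtain ⟨a, _, rfl⟩ := Finset.mem_image.1 hx
        obtain ⟨b, _, rfl⟩ := Finset.mem_image.1 hy
        rw [rkv_inj e h]
     lt := by
        intro x hx i
        obtain ⟨a, _, rfl⟩ := Finset.mem_image.1 hx
        rw [Finset.card_image_of_injective _
          (fun a b h => rkv_inj e (congrFun h 0)), Finset.card_univ, Fintype.card_fin]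
        exact (e i a).2 }, by
    show Finset.card _ = N
    rw [Finset.card_image_of_injective _
          (fun a b h => rkv_inj e (congrFun h 0)), Finset.card_univ, Fintype.card_fin]⟩

theorem mem_rk {e : EP N q} {x : Pt q} : x ∈ (rk e).1.pts ↔ ∃ a, rkv e a = x := by
  show x ∈ Finset.univ.image (rkv e) ↔ _
  simp

theorem rk_mul (e : EP N q) (g : Equiv.Perm (Fin N)) : rk (fun i => e i * g) = rk e := by
  apply Subtype.ext
  apply M.ext
  ext x
  rw [mem_rk, mem_rk]
  constructor
  · rintro ⟨a, rfl⟩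
    exact ⟨g a, rfl⟩
  · rintro ⟨a, rfl⟩
    exact ⟨g⁻¹ a, by funext i; simp [rkv]⟩

theorem map_rk (θ : Op p q) (e : EP N q) : (MN N).map θ (rk e) = rk (fun i => e (θ i)) := by
  apply Subtype.ext
  apply M.ext
  ext x
  show x ∈ (M.map (⇑θ) (rk e).1).pts ↔ _
  rw [M.mem_map, mem_rk]
  constructor
  · rintro ⟨y, hy, rfl⟩
    obtain ⟨a, rfl⟩ := mem_rk.1 hy
    exact ⟨a, rfl⟩
  · rintro ⟨a, rfl⟩
    exact ⟨rkv e a, mem_rk.2 ⟨a, rfl⟩, rfl⟩

/-- the point of rank `n` of the `i`-th order -/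
theorem exists_perm (F : (MN N).obj q) : ∃ e : EP N q, rk e = F := by
  classical
  have hcard : F.1.pts.card = N := F.2
  have e0 : F.1.pts ≃ Fin N := F.1.pts.equivFinOfCardEq hcard
  have hb : ∀ i, Function.Bijective (fun x : Fin N => (⟨(e0.symm x).1 i, by
      have := F.1.lt _ (e0.symm x).2 i
      rwa [hcard] at this⟩ : Fin N)) := by
    intro i
    rw [Finite.injective_iff_bijective.symm]
    intro x y h
    have h1 : (e0.symm x).1 i = (e0.symm y).1 i := congrArg Fin.val h
    have h2 := F.1.inj _ (e0.symm x).2 _ (e0.symm y).2 i h1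
    exact e0.symm.injective (Subtype.ext h2)
  refine ⟨fun i => Equiv.ofBijective _ (hb i), ?_⟩
  apply Subtype.ext
  apply M.ext
  ext x
  rw [mem_rk]
  constructor
  · rintro ⟨a, rfl⟩
    exact (e0.symm a).2
  · intro hx
    refine ⟨e0 ⟨x, hx⟩, ?_⟩
    funext i
    show (e0.symm (e0 ⟨x, hx⟩)).1 i = x i
    rw [Equiv.symm_apply_apply]

theorem rk_eq_iff {e e' : EP N q} : rk e = rk e' ↔ ∃ g : Equiv.Perm (Fin N), ∀ i, e' i = e i * g := by
  constructor
  · intro h
    have key : ∀ a : Fin N, ∃ b, rkv e b = rkv e' a := by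
      intro a
      rw [← mem_rk, h]
      exact mem_rk.2 ⟨a, rfl⟩
    choose g hg using key
    have hgi : Function.Injective g := by
      intro a b hab
      have : rkv e' a = rkv e' b := by rw [← hg, ← hg, hab]
      exact rkv_inj e' (congrFun this 0)
    refine ⟨Equiv.ofBijective g (Finite.injective_iff_bijective.1 hgi), fun i => ?_⟩
    ext a
    have := congrFun (hg a) i
    exact this.symm
  · rintro ⟨g, hg⟩
    have : e' = fun i => e i * g := funext hg
    rw [this, rk_mul]

/-- adding a new first letter -/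
def plus (e : EP N q) : EP (N + 1) q := fun i =>
  Equiv.Perm.decomposeFin.symm (0, e i)

@[simp] theorem plus_zero (e : EP N q) (i : Fin (q + 1)) : plus e i 0 = 0 := by
  simp [plus]

@[simp] theorem plus_succ (e : EP N q) (i : Fin (q + 1)) (x : Fin N) :
    plus e i x.succ = (e i x).succ := by
  simp [plus]

theorem sN_rk (e : EP N q) : (sN N).app (rk e) = rk (plus e) := by
  apply Subtype.ext
  apply M.ext
  ext x
  rw [mem_rk]
  show x ∈ (M.tau q * (rk e).1).pts ↔ _
  rw [M.mem_mul]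
  simp only [M.tau_pts, Finset.mem_singleton, M.deg_tau]
  constructor
  · rintro (rfl | ⟨y, hy, rfl⟩)
    · exact ⟨0, by funext i; simp [rkv]⟩
    · obtain ⟨a, rfl⟩ := mem_rk.1 hy
      exact ⟨a.succ, by funext i; simp [rkv, M.sh]⟩
  · rintro ⟨a, rfl⟩
    induction a using Fin.cases with
    | zero => left; funext i; simp [rkv]
    | succ a => right; exact ⟨rkv e a, mem_rk.2 ⟨a, rfl⟩, by funext i; simp [rkv, M.sh]⟩

/-- a tuple which fixes the first letter comes from below -/
theorem exists_plus {e : EP (N + 1) q} (h : ∀ i, e i 0 = 0) : ∃ e' : EP N q, plus e' = e := by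
  refine ⟨fun i => (Equiv.Perm.decomposeFin (e i)).2, ?_⟩
  funext i
  show Equiv.Perm.decomposeFin.symm (0, (Equiv.Perm.decomposeFin (e i)).2) = e i
  rw [Equiv.symm_apply_eq]
  ext : 1
  · have : (Equiv.Perm.decomposeFin (e i)).1 = e i 0 := by
      have := Equiv.Perm.decomposeFin_symm_apply_zero (Equiv.Perm.decomposeFin (e i)).1
        (Equiv.Perm.decomposeFin (e i)).2
      rw [← this, Prod.mk.eta, Equiv.symm_apply_apply]
    rw [this, h]
  · rfl

/-! ### the inverse convention (left multiplication) -/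

/-- the same with the inverse permutations: `mkN x = rk x⁻¹` -/
def mkN (x : EP N q) : (MN N).obj q := rk fun i => (x i)⁻¹

theorem mkN_surj (F : (MN N).obj q) : ∃ x : EP N q, mkN x = F := by
  obtain ⟨e, rfl⟩ := exists_perm F
  exact ⟨fun i => (e i)⁻¹, by simp [mkN]⟩

theorem mkN_eq_iff {x y : EP N q} :
    mkN x = mkN y ↔ ∃ g : Equiv.Perm (Fin N), ∀ i, y i = g * x i := by
  rw [mkN, mkN, rk_eq_iff]
  constructor
  · rintro ⟨g, hg⟩
    refine ⟨g⁻¹, fun i => ?_⟩
    rw [← inv_inj, hg i, mul_inv_rev, inv_inv]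
  · rintro ⟨g, hg⟩
    exact ⟨g⁻¹, fun i => by rw [hg i, mul_inv_rev]⟩

theorem mkN_map (θ : Op p q) (x : EP N q) : (MN N).map θ (mkN x) = mkN (fun i => x (θ i)) :=
  map_rk θ _

theorem mkN_of_fix {x : EP (N + 1) q} (h : ∀ i, x i 0 = 0) :
    ∃ F : (MN N).obj q, (sN N).app F = mkN x := by
  obtain ⟨e', he⟩ := exists_plus (e := fun i => (x i)⁻¹)
    (fun i => by rw [Equiv.Perm.inv_eq_iff_eq]; exact (h i).symm)
  exact ⟨rk e', by rw [sN_rk, he]; rfl⟩

theorem exists_fix (F : (MN N).obj q) :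
    ∃ x : EP (N + 1) q, (∀ i, x i 0 = 0) ∧ mkN x = (sN N).app F := by
  obtain ⟨e, rfl⟩ := exists_perm F
  refine ⟨fun i => (plus e i)⁻¹, fun i => ?_, ?_⟩
  · rw [Equiv.Perm.inv_eq_iff_eq, plus_zero]
  · rw [sN_rk]
    simp [mkN]

/-! ### cochains -/

variable {k : Type} [CommRing k]

/-- the coboundary of functions on tuples of permutations -/
def dE (G : EP N q → k) (e : EP N (q + 1)) : k :=
  ∑ i ∈ Finset.range (q + 2), sn i (G fun j => e (dl q i j))

/-- invariance under relabelling -/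
def InvR (G : EP N q → k) : Prop := ∀ (g : Equiv.Perm (Fin N)) (e : EP N q),
  G (fun i => e i * g) = G e

theorem d_rk (f : (SS.F k (MN N)).obj q) (e : EP N (q + 1)) :
    (SS.F k (MN N)).d q f (rk e) = dE (fun e => f (rk e)) e := by
  refine (SS.F_d (X := MN N) f (rk e)).trans ?_
  refine Finset.sum_congr rfl fun i _ => ?_
  exact congrArg (fun z => sn i (f z)) (map_rk (dl q i) e)

/-- invariant functions descend -/
theorem exists_down (G : EP N q → k) (h : InvR G) :
    ∃ f : (SS.F k (MN N)).obj q, ∀ e, f (rk e) = G e := by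
  classical
  refine ⟨fun F => G (exists_perm F).choose, fun e => ?_⟩
  obtain ⟨g, hg⟩ := rk_eq_iff.1 (exists_perm (rk e)).choose_spec.symm
  have : (exists_perm (rk e)).choose = fun i => e i * g := funext hg
  show G (exists_perm (rk e)).choose = G e
  rw [this, h]

theorem relAc_sN_zero (N : ℕ) : RelAc k (sN N) 0 := by
  apply RelAc.of_zero
  intro f _ h0
  funext F
  obtain ⟨e, rfl⟩ := exists_perm F
  have : rk e = (sN N).app (rk (fun _ => 1)) := by
    rw [sN_rk, rk_eq_iff]
    refine ⟨(e 0)⁻¹, fun i => ?_⟩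
    have hi : i = 0 := Subsingleton.elim (α := Fin 1) i 0
    subst hi
    rw [mul_inv_cancel]
    ext x
    induction x using Fin.cases with
    | zero => rw [plus_zero]; rfl
    | succ x => rw [plus_succ]; rfl
  rw [this]
  exact congrFun h0 _

/-- **The bridge** from invariant functions on tuples of permutations to the pair
`(M(N + 1), M(N))`. -/
theorem relAc_sN_succ (N q : ℕ)
    (h : ∀ G : EP (N + 1) (q + 1) → k, InvR G → (∀ e, dE G e = 0) →
      (∀ e : EP (N + 1) (q + 1), (∀ i, e i 0 = 0) → G e = 0) →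
      ∃ H : EP (N + 1) q → k, InvR H ∧ (∀ e : EP (N + 1) q, (∀ i, e i 0 = 0) → H e = 0) ∧
        ∀ e, dE H e = G e) : RelAc k (sN N) (q + 1) := by
  apply RelAc.of_succ
  intro f hf h0
  obtain ⟨H, h1, h2, h3⟩ := h (fun e => f (rk e))
    (fun g e => congrArg f (rk_mul e g))
    (fun e => by
      rw [← d_rk, CosMod.mem_Z.1 hf]; rfl)
    (fun e he => by
      obtain ⟨e', rfl⟩ := exists_plus he
      rw [← sN_rk]
      exact congrFun h0 (rk e'))
  obtain ⟨u, hu⟩ := exists_down H h1
  refine ⟨u, ?_, ?_⟩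
  · funext F
    obtain ⟨e, rfl⟩ := exists_perm F
    rw [d_rk, ← h3]
    congr 1
    funext e
    exact hu e
  · funext F
    obtain ⟨e, rfl⟩ := exists_perm F
    show u ((sN N).app (rk e)) = 0
    rw [sN_rk, hu]
    exact h2 _ fun i => plus_zero e i

/-- the same with the left action -/
theorem relAc_sN_succ' (N q : ℕ)
    (h : ∀ G : EP (N + 1) (q + 1) → k,
      (∀ (g : Equiv.Perm (Fin (N + 1))) e, G (fun i => g * e i) = G e) → (∀ e, dE G e = 0) →
      (∀ e : EP (N + 1) (q + 1), (∀ i, e i 0 = 0) → G e = 0) →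
      ∃ H : EP (N + 1) q → k,
        (∀ (g : Equiv.Perm (Fin (N + 1))) e, H (fun i => g * e i) = H e) ∧
        (∀ e : EP (N + 1) q, (∀ i, e i 0 = 0) → H e = 0) ∧
        ∀ e, dE H e = G e) : RelAc k (sN N) (q + 1) := by
  apply relAc_sN_succ
  intro G h1 h2 h3
  obtain ⟨H, h4, h5, h6⟩ := h (fun e => G fun i => (e i)⁻¹)
    (fun g e => by
      simp only [mul_inv_rev]
      exact h1 g⁻¹ _)
    (fun e => h2 fun i => (e i)⁻¹)
    (fun e he => h3 _ fun i => by rw [Equiv.Perm.inv_eq_iff_eq]; exact (he i).symm)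
  refine ⟨fun e => H fun i => (e i)⁻¹, fun g e => ?_, fun e he => ?_, fun e => ?_⟩
  · simp only [mul_inv_rev]
    exact h4 g⁻¹ _
  · exact h5 _ fun i => by rw [Equiv.Perm.inv_eq_iff_eq]; exact (he i).symm
  · have := h6 fun i => (e i)⁻¹
    simp only [inv_inv] at this
    exact this

end Vale.Agent.P263.GC
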