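import Vale.Agent.P263.E.Simp
import Vale.Agent.P263.G.Free

/-!
# P263, block GC: the simplicial sets `UM` and `M_∞`, translations, relative cochains

* `UMs`, `MIs` : the simplicial sets `UM` and `M_∞ = ⋃ τ⁻ⁿ M`, `inc : MIs → UMs`;
* `rhoU`, `lamU`, `rhoM`, `lamM` : right and left multiplication by `τ`;
* `Rel k` : the functions on `UM` which vanish on `M_∞`.
-/

namespace Vale.Agent.P263.GC

open Vale.Agent.P263.S Vale.Agent.P263.E Vale.Agent.P263.G

/-- `UM` as a simplicial set -/
noncomputable def UMs : SS where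
  obj q := UM q
  map θ g := UM.map θ g
  map_id x := UM.map_id x
  map_comp f g x := (UM.map_map f g x).symm

/-- `M_∞` as a simplicial set -/
noncomputable def MIs : SS where
  obj q := MInf q
  map θ g := ⟨UM.map θ g.1, MInf.map g.2 θ⟩
  map_id x := Subtype.ext (UM.map_id x.1)
  map_comp f g x := Subtype.ext (UM.map_map f g x.1).symm

/-- the inclusion of `M_∞` -/
noncomputable def inc : SS.Map MIs UMs := ⟨fun x => x.1, fun _ _ => rfl⟩

theorem inc_inj : inc.Inj := fun _ _ _ h => Subtype.ext h

/-- right multiplication by `τ` -/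
noncomputable def rhoU : SS.Map UMs UMs where
  app {p} x := (show UM p from x) * t p
  nat {p q} f x := by
    show UM.map f x * t p = UM.map f ((show UM q from x) * t q)
    rw [map_mul, map_t]

/-- left multiplication by `τ` -/
noncomputable def lamU : SS.Map UMs UMs where
  app {p} x := t p * (show UM p from x)
  nat {p q} f x := by
    show t p * UM.map f x = UM.map f (t q * (show UM q from x))
    rw [map_mul, map_t]

/-- right multiplication by `τ` on `M_∞` -/
noncomputable def rhoM : SS.Map MIs MIs where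
  app {p} x := ⟨x.1 * t p, MInf.mul x.2 (M.tau p)⟩
  nat f x := Subtype.ext (rhoU.nat f x.1)

/-- left multiplication by `τ` on `M_∞` -/
noncomputable def lamM : SS.Map MIs MIs where
  app {p} x := ⟨t p * x.1, MInf.t_mul x.2⟩
  nat f x := Subtype.ext (lamU.nat f x.1)

/-- left multiplication by `τ⁻¹` on `M_∞` -/
noncomputable def lamM' : SS.Map MIs MIs where
  app {p} x := ⟨(t p)⁻¹ * x.1, MInf.t_inv_mul x.2⟩
  nat {p q} f x := Subtype.ext (by
    show (t p)⁻¹ * UM.map f x.1 = UM.map f ((t q)⁻¹ * x.1)
    rw [map_mul, map_inv, map_t])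

theorem lamM_lamM' {p : ℕ} (x : MIs.obj p) : lamM.app (lamM'.app x) = x :=
  Subtype.ext (mul_inv_cancel_left _ _)

theorem lamM'_lamM {p : ℕ} (x : MIs.obj p) : lamM'.app (lamM.app x) = x :=
  Subtype.ext (inv_mul_cancel_left _ _)

theorem inc_rhoM {p : ℕ} (x : MIs.obj p) : inc.app (rhoM.app x) = rhoU.app (inc.app x) := rfl

theorem inc_lamM {p : ℕ} (x : MIs.obj p) : inc.app (lamM.app x) = lamU.app (inc.app x) := rfl

end Vale.Agent.P263.GC
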