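import Vale.Agent.P263.S.Core
import Vale.Agent.P263.G.Free
import Mathlib.Order.WellFounded

/-!
# P263, block GC: elements of `M` which come from lower dimensions

`Dg p m` : `m ∈ M q` comes from a dimension `< p`.  Eilenberg-Zilber: an element which is the image
of a nondegenerate element `c ∈ M p` under a surjection `θ : [q] → [p]` determines `θ` and `c`.
-/

namespace Vale.Agent.P263.GC

open Vale.Agent.P263.S Vale.Agent.P263.G

variable {p q r : ℕ}

/-- `m` comes from a dimension `< p` -/
def Dg (p : ℕ) {q : ℕ} (m : M q) : Prop :=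
  ∃ p', p' < p ∧ ∃ (θ : Op q p') (c : M p'), m = c.map θ

theorem not_dg_zero (m : M q) : ¬ Dg 0 m := fun ⟨_, h, _⟩ => absurd h (Nat.not_lt_zero _)

theorem Dg.map {m : M q} (h : Dg p m) (α : Op r q) : Dg p (m.map α) := by
  obtain ⟨p', hp, θ, c, rfl⟩ := h
  exact ⟨p', hp, θ.comp α, c, M.map_map _ _ _⟩

theorem dg_of_lt (h : q < p) (m : M q) : Dg p m :=
  ⟨q, h, OrderHom.id, m, (M.map_id m).symm⟩

/-- the left inverse of the coface which omits `i`, away from `i` -/
def sq (p i : ℕ) : Op (p + 1) p where
  toFun x := ⟨if x.1 < i then min x.1 p else x.1 - 1, by have := x.2; split_ifs <;> omega⟩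
  monotone' x y h := by
    have := x.2; have := y.2
    simp only [Fin.le_def] at *
    split_ifs <;> omega

theorem dl_sq {p i : ℕ} (hi : i ≤ p + 1) (x : Fin (p + 2)) (h : x.1 ≠ i) :
    dl p i (sq p i x) = x := by
  apply Fin.ext
  rw [dl_val]
  show (if (if x.1 < i then min x.1 p else x.1 - 1) < i
    then (if x.1 < i then min x.1 p else x.1 - 1)
    else (if x.1 < i then min x.1 p else x.1 - 1) + 1) = x.1
  have := x.2
  split_ifs <;> omega

theorem dg_of_not_surj (θ : Op q p) (h : ¬ Function.Surjective θ) (c : M p) : Dg p (c.map θ) := by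
  rw [Function.Surjective] at h
  push Not at h
  obtain ⟨i, hi⟩ := h
  cases p with
  | zero => exact absurd (Subsingleton.elim (α := Fin 1) _ _) (hi 0)
  | succ p =>
    refine ⟨p, Nat.lt_succ_self p, (sq p i.1).comp θ, c.map (dl p i.1), ?_⟩
    rw [M.map_map]
    congr 1
    funext x
    show θ x = dl p i.1 (sq p i.1 (θ x))
    rw [dl_sq (by have := i.2; omega)]
    intro h
    exact hi x (Fin.ext h)

/-- a section of a surjection through a given point -/
theorem exists_section (θ : Op q p) (h : Function.Surjective θ) (x0 : Fin (q + 1)) :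
    ∃ s : Op p q, (∀ y, θ (s y) = y) ∧ s (θ x0) = x0 := by
  classical
  let f : Fin (p + 1) → Fin (q + 1) := fun y => if y = θ x0 then x0 else (h y).choose
  have hf : ∀ y, θ (f y) = y := by
    intro y
    by_cases hy : y = θ x0
    · simp only [f, if_pos hy]
      exact hy.symm
    · simp only [f, if_neg hy]
      exact (h y).choose_spec
  refine ⟨⟨f, ?_⟩, hf, ?_⟩
  · intro y y' hy
    by_contra hc
    rw [not_le] at hc
    have := θ.monotone hc.le
    rw [hf, hf] at this
    have e := le_antisymm hy this
    rw [e] at hc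
    exact lt_irrefl _ hc
  · show (if θ x0 = θ x0 then x0 else _) = x0
    rw [if_pos rfl]

theorem surj_eq_id (σ : Op p p) (h : Function.Surjective σ) : σ = OrderHom.id := by
  have hi : Function.Injective σ := Finite.injective_iff_surjective.2 h
  have hs : StrictMono σ := σ.monotone.strictMono_of_injective hi
  apply OrderHom.ext
  funext x
  exact le_antisymm hs.apply_le hs.le_apply

/-- **Eilenberg-Zilber**, uniqueness -/
theorem ez_unique {θ θ' : Op q p} (hθ : Function.Surjective θ) {c c' : M p} (hc : ¬ Dg p c)
    (h : c.map θ = c'.map θ') : θ = θ' ∧ c = c' := by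
  have key : ∀ x0, c = c' ∧ θ x0 = θ' x0 := by
    intro x0
    obtain ⟨s, hs, hx⟩ := exists_section θ hθ x0
    have e1 : c = c'.map (θ'.comp s) := by
      have := congrArg (M.map s) h
      rw [M.map_map, M.map_map] at this
      have e : (θ ∘ s : Fin (p + 1) → Fin (p + 1)) = id := funext hs
      rw [e, M.map_id] at this
      exact this
    have e2 : Function.Surjective (θ'.comp s) := by
      by_contra hn
      apply hc
      rw [e1]
      exact dg_of_not_surj _ hn c'
    have e3 := surj_eq_id _ e2
    constructor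
    · rw [e1, e3]
      exact M.map_id c'
    · have := congrArg (fun σ : Op p p => σ (θ x0)) e3
      have h4 : θ' (s (θ x0)) = θ x0 := this
      rw [hx] at h4
      exact h4.symm
  exact ⟨OrderHom.ext _ _ (funext fun x => (key x).2), (key 0).1⟩

theorem map_section (θ : Op q p) (s : Op p q) (hs : ∀ y, θ (s y) = y) (c : M p) :
    (c.map θ).map s = c := by
  rw [M.map_map]
  have e : (θ ∘ s : Fin (p + 1) → Fin (p + 1)) = id := funext hs
  rw [e, M.map_id]

/-- an element which comes from a lower dimension is the image under a surjection -/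
theorem Dg.exists_surj {m : M q} (h : Dg p m) :
    ∃ p', p' < p ∧ ∃ (θ : Op q p') (c : M p'), Function.Surjective θ ∧ m = c.map θ := by
  classical
  have hex : ∃ p', ∃ (θ : Op q p') (c : M p'), m = c.map θ := by
    obtain ⟨p', _, h⟩ := h
    exact ⟨p', h⟩
  have hlt : Nat.find hex < p := by
    obtain ⟨p', hp, h⟩ := h
    exact lt_of_le_of_lt (Nat.find_min' hex h) hp
  obtain ⟨θ, c, hm⟩ := Nat.find_spec hex
  refine ⟨Nat.find hex, hlt, θ, c, ?_, hm⟩
  by_contra hn
  obtain ⟨p', hp, h⟩ := dg_of_not_surj θ hn c
  rw [← hm] at h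
  exact Nat.find_min hex hp h

/-- the factors of an element which comes from a lower dimension -/
theorem Dg.factor {m m' : M q} (h : Dg p (m * m')) : Dg p m ∧ Dg p m' := by
  obtain ⟨p', hp, θ, c, hθ, hm⟩ := h.exists_surj
  obtain ⟨s, hs, _⟩ := exists_section θ hθ 0
  have e : m * m' = (m.map s).map θ * (m'.map s).map θ := by
    rw [← M.map_mul, ← M.map_mul, hm, map_section θ s hs]
  have e1 : m = (m.map s).map θ := M.left_unique e (by simp)
  have e2 : m' = (m'.map s).map θ := by
    rw [← e1] at e
    exact mul_left_cancel e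
  exact ⟨⟨p', hp, θ, _, e1⟩, ⟨p', hp, θ, _, e2⟩⟩

/-- the nondegenerate generators -/
def NB (p : ℕ) : Type := {b : B p // ¬ Dg p b.1}

/-- the image of a generator under a surjection -/
theorem ind_surj {c : M p} (hc : Ind c) (θ : Op q p) (hθ : Function.Surjective θ) :
    Ind (c.map θ) := by
  obtain ⟨s, hs, _⟩ := exists_section θ hθ 0
  exact hc.map (s := s) (funext hs)

/-- an image of a nondegenerate element under a surjection does not come from a lower dimension -/
theorem not_dg_map {c : M p} (hc : ¬ Dg p c) (θ : Op q p) (hθ : Function.Surjective θ) :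
    ¬ Dg p (c.map θ) := by
  intro h
  obtain ⟨s, hs, _⟩ := exists_section θ hθ 0
  have := h.map s
  rw [map_section θ s hs] at this
  exact hc this

end Vale.Agent.P263.GC
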