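import Mathlib

/-!
# P263, block GC: the tree lemma

`G = FreeGroup β`, `V` an additive group.  A function `f : G → V` with `f 1 = 0` is the same thing as
the family of its right differences `g ↦ f (g * of b) - f g`, `b : β` (the Cayley graph is a tree).
Relative version: functions which vanish on a set `S` which is connected by positive letters.
-/

namespace Vale.Agent.P263.GC

open FreeGroup (of)

universe u v

variable {β : Type u} {V : Type v} [AddCommGroup V]

/-- the right difference of a function on the free group in the direction of a letter -/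
def rdiff (f : FreeGroup β → V) (b : β) (g : FreeGroup β) : V := f (g * of b) - f g

/-- the step of the extension -/
def stepEquiv (F : β → FreeGroup β → V) (b : β) : Equiv.Perm (FreeGroup β × V) where
  toFun p := (p.1 * of b, p.2 + F b p.1)
  invFun p := (p.1 * (of b)⁻¹, p.2 - F b (p.1 * (of b)⁻¹))
  left_inv p := by ext <;> simp
  right_inv p := by ext <;> simp

/-- the right action of the free group on `G × V` -/
def actHom (F : β → FreeGroup β → V) : FreeGroup β →* (Equiv.Perm (FreeGroup β × V))ᵐᵒᵖ :=
  FreeGroup.lift fun b => MulOpposite.op (stepEquiv F b)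

/-- the integral of a family of functions -/
def integ (F : β → FreeGroup β → V) (g : FreeGroup β) : V := ((actHom F g).unop (1, 0)).2

theorem actHom_fst (F : β → FreeGroup β → V) (g : FreeGroup β) (p : FreeGroup β × V) :
    ((actHom F g).unop p).1 = p.1 * g := by
  induction g using FreeGroup.induction_on generalizing p with
  | C1 => simp
  | of b => simp [actHom, stepEquiv]
  | inv_of b _ => simp [actHom, stepEquiv]
  | mul x y hx hy =>
      rw [_root_.map_mul, MulOpposite.unop_mul, Equiv.Perm.mul_apply, hy, hx, mul_assoc]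

@[simp] theorem integ_one (F : β → FreeGroup β → V) : integ F 1 = 0 := by simp [integ]

theorem integ_mul_of (F : β → FreeGroup β → V) (g : FreeGroup β) (b : β) :
    integ F (g * of b) = integ F g + F b g := by
  have h := actHom_fst F g (1, 0)
  simp only [one_mul] at h
  unfold integ
  rw [_root_.map_mul, MulOpposite.unop_mul, Equiv.Perm.mul_apply]
  have h2 : (actHom F (of b)).unop = stepEquiv F b := by simp [actHom]
  rw [h2]
  simp [stepEquiv, h]

theorem rdiff_integ (F : β → FreeGroup β → V) (b : β) : rdiff (integ F) b = F b := by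
  funext g; simp [rdiff, integ_mul_of]

omit [AddCommGroup V] in
/-- a function whose right differences in all directions vanish is constant -/
theorem const_of_rdiff {f : FreeGroup β → V} (h : ∀ b g, f (g * of b) = f g) (x g : FreeGroup β) :
    f (x * g) = f x := by
  induction g using FreeGroup.induction_on generalizing x with
  | C1 => simp
  | of b => exact h b x
  | inv_of b _ =>
      have := h b (x * (of b)⁻¹)
      rw [inv_mul_cancel_right] at this
      exact this.symm
  | mul y z hy hz => rw [← mul_assoc, hz, hy]

theorem eq_of_rdiff {f f' : FreeGroup β → V} (h1 : f 1 = f' 1)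
    (h : ∀ b g, rdiff f b g = rdiff f' b g) : f = f' := by
  have key : ∀ b g, (fun g => f g - f' g) (g * of b) = (fun g => f g - f' g) g := by
    intro b g
    have := h b g
    simp only [rdiff] at this
    show f (g * of b) - f' (g * of b) = f g - f' g
    have e1 : f (g * of b) = (f' (g * of b) - f' g) + f g := by rw [← this]; abel
    rw [e1]; abel
  funext g
  have := const_of_rdiff (f := fun g => f g - f' g) key 1 g
  simp only [one_mul, h1, sub_self] at this
  exact sub_eq_zero.mp this

theorem integ_rdiff {f : FreeGroup β → V} (h1 : f 1 = 0) : integ (rdiff f) = f :=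
  eq_of_rdiff (by simp [h1]) fun b g => by rw [rdiff_integ]

theorem integ_add (F F' : β → FreeGroup β → V) (g : FreeGroup β) :
    integ (fun b x => F b x + F' b x) g = integ F g + integ F' g := by
  have : integ (fun b x => F b x + F' b x) = fun g => integ F g + integ F' g := by
    apply eq_of_rdiff
    · simp
    · intro b g
      rw [rdiff_integ]
      simp only [rdiff, integ_mul_of]
      abel
  exact congrFun this g

/-- `S` is connected to `1` by letters inside `S`: every element of `S` is reached from `1` by steps
`g ↦ g * of b` and their inverses with both ends in `S`. -/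
inductive Reach (S : Set (FreeGroup β)) : FreeGroup β → Prop
  | one : Reach S 1
  | step {g : FreeGroup β} (b : β) : Reach S g → g ∈ S → Reach S (g * of b)
  | back {g : FreeGroup β} (b : β) : Reach S (g * of b) → g ∈ S → Reach S g

theorem integ_eq_zero_of_reach (S : Set (FreeGroup β)) (F : β → FreeGroup β → V)
    (hF : ∀ b, ∀ g ∈ S, F b g = 0) {g : FreeGroup β} (h : Reach S g) : integ F g = 0 := by
  induction h with
  | one => simp
  | step b _ hg ih => rw [integ_mul_of, ih, hF b _ hg, add_zero]
  | back b _ hg ih =>
      rw [integ_mul_of, hF b _ hg, add_zero] at ih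
      exact ih

/-- the positive cone: the monoid of positive words inside the free group -/
def pos (β : Type u) : Submonoid (FreeGroup β) := Submonoid.closure (Set.range of)

/-- `M_∞ = ⋃ t^{-n} M` -/
def posInf (t : β) : Set (FreeGroup β) := {g | ∃ n : ℕ, (of t) ^ n * g ∈ pos β}

theorem of_mem_pos (b : β) : of b ∈ pos β := Submonoid.subset_closure ⟨b, rfl⟩

theorem posInf_of_pos (t : β) {g : FreeGroup β} (h : g ∈ pos β) : g ∈ posInf t := ⟨0, by simpa⟩

theorem posInf_mul (t : β) {g m : FreeGroup β} (h : g ∈ posInf t) (hm : m ∈ pos β) :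
    g * m ∈ posInf t := by
  obtain ⟨n, hn⟩ := h
  exact ⟨n, by rw [← mul_assoc]; exact mul_mem hn hm⟩

theorem posInf_mul_of (t : β) {g : FreeGroup β} (h : g ∈ posInf t) (b : β) :
    g * of b ∈ posInf t := posInf_mul t h (of_mem_pos b)

theorem posInf_pow_inv (t : β) (n : ℕ) : ((of t) ^ n)⁻¹ ∈ posInf t := ⟨n, by simp [one_mem]⟩

theorem reach_posInf (t : β) {g : FreeGroup β} (h : g ∈ posInf t) : Reach (posInf t) g := by
  have h1 : ∀ n : ℕ, Reach (posInf t) ((of t) ^ n)⁻¹ := by
    intro n
    induction n with
    | zero => simpa using Reach.one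
    | succ n ih =>
        refine Reach.back t ?_ (posInf_pow_inv t (n + 1))
        have : ((of t) ^ (n + 1))⁻¹ * of t = ((of t) ^ n)⁻¹ := by
          rw [pow_succ', mul_inv_rev, inv_mul_cancel_right]
        rw [this]
        exact ih
  obtain ⟨n, hn⟩ := h
  have h2 : ∀ m ∈ pos β, Reach (posInf t) (((of t) ^ n)⁻¹ * m) := by
    intro m hm
    induction hm using Submonoid.closure_induction_right with
    | one => simpa using h1 n
    | mul_right x hx y hy ih =>
        obtain ⟨b, rfl⟩ := hy
        rw [← mul_assoc]
        exact Reach.step b ih ⟨n, by rw [mul_inv_cancel_left]; exact hx⟩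
  have := h2 _ hn
  rwa [inv_mul_cancel_left] at this

/-- **Tree lemma.**  Let `S` be a set of elements which contains `1`, is closed under right
multiplication by letters and is connected.  Then `f ↦ (rdiff f b)_b` is a bijection between the
functions which vanish on `S` and the families of functions which vanish on `S`. -/
theorem tree_exists (S : Set (FreeGroup β)) (hc : ∀ g ∈ S, Reach S g)
    (F : β → FreeGroup β → V) (hF : ∀ b, ∀ g ∈ S, F b g = 0) :
    ∃ f : FreeGroup β → V, (∀ g ∈ S, f g = 0) ∧ ∀ b, rdiff f b = F b :=
  ⟨integ F, fun g hg => integ_eq_zero_of_reach S F hF (hc g hg), fun b => rdiff_integ F b⟩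

theorem tree_unique (S : Set (FreeGroup β)) (h1 : (1 : FreeGroup β) ∈ S)
    {f f' : FreeGroup β → V} (hf : ∀ g ∈ S, f g = 0) (hf' : ∀ g ∈ S, f' g = 0)
    (h : ∀ b, rdiff f b = rdiff f' b) : f = f' :=
  eq_of_rdiff (by rw [hf 1 h1, hf' 1 h1]) fun b g => congrFun (h b) g

theorem rdiff_vanish (S : Set (FreeGroup β)) (hS : ∀ g ∈ S, ∀ b, g * of b ∈ S)
    {f : FreeGroup β → V} (hf : ∀ g ∈ S, f g = 0) (b : β) : ∀ g ∈ S, rdiff f b g = 0 := by
  intro g hg; simp [rdiff, hf _ (hS g hg b), hf g hg]

/-- partial version: differences prescribed to vanish for the letters in a subset; used for the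
filtration by cells.  Any family of functions `F b`, `b` outside `T`, integrates to a function which
is invariant under right multiplication by the letters in `T`. -/
theorem tree_partial (S : Set (FreeGroup β)) (hc : ∀ g ∈ S, Reach S g) (T : Set β)
    [DecidablePred (· ∈ T)]
    (F : β → FreeGroup β → V) (hF : ∀ b, ∀ g ∈ S, F b g = 0) :
    ∃ f : FreeGroup β → V, (∀ g ∈ S, f g = 0) ∧ (∀ b ∈ T, ∀ g, f (g * of b) = f g) ∧
      ∀ b ∉ T, rdiff f b = F b := by
  obtain ⟨f, h1, h2⟩ := tree_exists S hc (fun b => if b ∈ T then 0 else F b)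
    (fun b g hg => by split_ifs; · rfl
                      · exact hF b g hg)
  refine ⟨f, h1, fun b hb g => ?_, fun b hb => ?_⟩
  · have := congrFun (h2 b) g
    simp only [hb, if_true, rdiff, Pi.zero_apply] at this
    exact sub_eq_zero.mp this
  · rw [h2 b]; simp [hb]

/-! ### The form with lists -/

/-- `g = t^{-n} * (product of letters)` -/
def SInf (t : β) : Set (FreeGroup β) :=
  {g | ∃ (n : ℕ) (l : List β), g = ((of t) ^ n)⁻¹ * (l.map of).prod}

theorem mem_pos_iff (g : FreeGroup β) : g ∈ pos β ↔ ∃ l : List β, g = (l.map of).prod := by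
  constructor
  · intro h
    induction h using Submonoid.closure_induction_right with
    | one => exact ⟨[], by simp⟩
    | mul_right x hx y hy ih =>
        obtain ⟨b, rfl⟩ := hy
        obtain ⟨l, rfl⟩ := ih
        exact ⟨l ++ [b], by simp⟩
  · rintro ⟨l, rfl⟩
    exact Submonoid.list_prod_mem _ fun x hx => by
      obtain ⟨b, _, rfl⟩ := List.mem_map.mp hx
      exact of_mem_pos b

theorem mem_SInf_iff (t : β) (g : FreeGroup β) : g ∈ SInf t ↔ g ∈ posInf t := by
  constructor
  · rintro ⟨n, l, rfl⟩
    exact ⟨n, by rw [mul_inv_cancel_left]; exact (mem_pos_iff _).mpr ⟨l, rfl⟩⟩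
  · rintro ⟨n, hn⟩
    obtain ⟨l, hl⟩ := (mem_pos_iff _).mp hn
    exact ⟨n, l, by rw [← hl, inv_mul_cancel_left]⟩

theorem SInf_eq (t : β) : SInf t = posInf t := Set.ext (mem_SInf_iff t)

/-- **Tree lemma** in the form used by the cell filtration. -/
theorem tree (t : β) (f : β → FreeGroup β → V) (hf : ∀ x, ∀ g ∈ SInf t, f x g = 0) :
    ∃ F : FreeGroup β → V, (∀ g ∈ SInf t, F g = 0) ∧ ∀ x g, F (g * of x) = F g + f x g := by
  rw [SInf_eq] at *
  obtain ⟨F, h1, h2⟩ := tree_exists (posInf t) (fun g hg => reach_posInf t hg) f hf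
  refine ⟨F, h1, fun x g => ?_⟩
  have := congrFun (h2 x) g
  simp only [rdiff] at this
  rw [← this]; abel

theorem tree_uniq {F : FreeGroup β → V} (h : ∀ x g, F (g * of x) = F g) (h1 : F 1 = 0) : F = 0 := by
  funext g
  have := const_of_rdiff (f := F) h 1 g
  rw [one_mul] at this
  rw [this, h1]; rfl

end Vale.Agent.P263.GC
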