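import Vale.Agent.P263.GC.Cell
import Vale.Agent.P263.GC.Defs
import Vale.Agent.P263.GC.EZ
import Vale.Agent.P263.GC.Tree

/-!
# P263, block GC: the filtration of the relative cochains of `(UM, M_∞)` by cells

`FF k p` : functions on `UM` which vanish on `M_∞` and are invariant under right multiplication by
the elements of `M` which come from a dimension `< p`.  `FF k p / FF k (p + 1)` is a product of cells
`Dp p (FF k 0)` by the tree lemma.  Result: if `FF k 0` has no cohomology in degrees `< j`, then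
`FF k p`, `p ≥ 1`, has no cohomology in degrees `≤ j`, and `ρ - 1` is injective on `H^j (FF k 0)`.
-/

namespace Vale.Agent.P263.GC

open Vale.Agent.P263.S Vale.Agent.P263.E Vale.Agent.P263.G

/-! ### `M_∞` and the positive cone -/

theorem ι_mem_pos {q : ℕ} (F : M q) : (ι F : UM q) ∈ pos (B q) := by
  induction F using M.ind_on with
  | one => rw [map_one]; exact one_mem _
  | mul b F ih =>
    rw [map_mul, ι_coe]
    exact mul_mem (of_mem_pos b) ih

theorem exists_ι_of_mem_pos {q : ℕ} {g : UM q} (h : g ∈ pos (B q)) : ∃ F : M q, g = ι F := by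
  induction h using Submonoid.closure_induction_right with
  | one => exact ⟨1, (map_one _).symm⟩
  | mul_right x hx y hy ih =>
    obtain ⟨b, rfl⟩ := hy
    obtain ⟨F, rfl⟩ := ih
    exact ⟨F * b.1, by rw [map_mul, ι_coe]⟩

theorem mem_MInf_iff_posInf {q : ℕ} {g : UM q} : g ∈ MInf q ↔ g ∈ posInf (tauB q) := by
  constructor
  · rintro ⟨n, F, h⟩
    refine ⟨n, ?_⟩
    rw [← t_eq, h]
    exact ι_mem_pos F
  · rintro ⟨n, h⟩
    obtain ⟨F, hF⟩ := exists_ι_of_mem_pos h
    refine ⟨n, F, ?_⟩
    rw [t_eq, hF]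

theorem one_mem_MInf (q : ℕ) : (1 : UM q) ∈ MInf q := by
  rw [← map_one (ι : M q →* UM q)]
  exact ι_mem_MInf 1

/-- the tree lemma for `UM q` and `M_∞` -/
theorem tree_UM {q : ℕ} {V : Type} [AddCommGroup V] (F : B q → UM q → V)
    (hF : ∀ b, ∀ g ∈ MInf q, F b g = 0) :
    ∃ f : UM q → V, (∀ g ∈ MInf q, f g = 0) ∧ ∀ b g, f (g * FreeGroup.of b) = f g + F b g := by
  obtain ⟨f, h1, h2⟩ := tree_exists (posInf (tauB q)) (fun g hg => reach_posInf _ hg) F
    (fun b g hg => hF b g (mem_MInf_iff_posInf.2 hg))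
  refine ⟨f, fun g hg => h1 g (mem_MInf_iff_posInf.1 hg), fun b g => ?_⟩
  have := congrFun (h2 b) g
  simp only [rdiff] at this
  rw [← this]; abel

/-! ### the filtration -/

variable (k : Type) [CommRing k]

/-- functions on `UM` which vanish on `M_∞` and are invariant under the elements of `M` which come
from a dimension `< p` -/
noncomputable def FF (p : ℕ) : CosMod k :=
  sub (SS.F k UMs) (fun q =>
    { carrier := {f | (∀ g ∈ MInf q, f g = 0) ∧
        ∀ m : M q, Dg p m → ∀ g : UM q, f (g * ι m : UM q) = f g}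
      add_mem' := fun {a b} ha hb => ⟨fun g hg => by
          show a g + b g = 0
          rw [ha.1 g hg, hb.1 g hg, add_zero], fun m hm g => by
          show a (g * ι m : UM q) + b (g * ι m : UM q) = a g + b g
          rw [ha.2 m hm g, hb.2 m hm g]⟩
      zero_mem' := ⟨fun _ _ => rfl, fun _ _ _ => rfl⟩
      smul_mem' := fun c x hx => ⟨fun g hg => by
          show c • x g = 0
          rw [hx.1 g hg, smul_zero], fun m hm g => by
          show c • x (g * ι m : UM q) = c • x g
          rw [hx.2 m hm g]⟩ })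
    (fun {q r} α x hx => ⟨fun g hg => hx.1 _ (MInf.map hg α), fun m hm g => by
      show x (UM.map α (g * ι m) : UM q) = x (UM.map α g : UM q)
      rw [map_mul, UM.map_ι]
      exact hx.2 _ (hm.map α) _⟩)

variable {k}

/-- the function -/
def FF.fn {p q : ℕ} (f : (FF k p).obj q) : UM q → k := f.1

theorem FF.ext {p q : ℕ} {f f' : (FF k p).obj q} (h : ∀ g, FF.fn f g = FF.fn f' g) : f = f' :=
  Subtype.ext (funext h)

theorem FF.van {p q : ℕ} (f : (FF k p).obj q) {g : UM q} (hg : g ∈ MInf q) : FF.fn f g = 0 :=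
  f.2.1 g hg

theorem FF.inv {p q : ℕ} (f : (FF k p).obj q) {m : M q} (hm : Dg p m) (g : UM q) :
    FF.fn f (g * ι m) = FF.fn f g := f.2.2 m hm g

/-- constructor -/
def FF.mk {p q : ℕ} (f : UM q → k) (h : ∀ g ∈ MInf q, f g = 0)
    (h' : ∀ m : M q, Dg p m → ∀ g : UM q, f (g * ι m) = f g) : (FF k p).obj q := ⟨f, h, h'⟩

/-- constructor of relative cochains -/
def FF.mk0 {q : ℕ} (f : UM q → k) (h : ∀ g ∈ MInf q, f g = 0) : (FF k 0).obj q :=
  FF.mk f h fun m hm => absurd hm (not_dg_zero m)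

@[simp] theorem FF.fn_mk {p q : ℕ} (f : UM q → k) (h) (h') (g : UM q) :
    FF.fn (FF.mk (p := p) f h h') g = f g := rfl

@[simp] theorem FF.fn_mk0 {q : ℕ} (f : UM q → k) (h) (g : UM q) :
    FF.fn (FF.mk0 f h) g = f g := rfl

@[simp] theorem FF.fn_map {p q r : ℕ} (α : Op q r) (f : (FF k p).obj q) (g : UM r) :
    FF.fn ((FF k p).map α f) g = FF.fn f (UM.map α g) := rfl

@[simp] theorem FF.fn_add {p q : ℕ} (f f' : (FF k p).obj q) (g : UM q) :
    FF.fn (f + f') g = FF.fn f g + FF.fn f' g := rfl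

@[simp] theorem FF.fn_sub {p q : ℕ} (f f' : (FF k p).obj q) (g : UM q) :
    FF.fn (f - f') g = FF.fn f g - FF.fn f' g := rfl

@[simp] theorem FF.fn_smul {p q : ℕ} (c : k) (f : (FF k p).obj q) (g : UM q) :
    FF.fn (c • f) g = c • FF.fn f g := rfl

@[simp] theorem FF.fn_zero {p q : ℕ} (g : UM q) : FF.fn (0 : (FF k p).obj q) g = 0 := rfl

/-- the filtration vanishes in degrees `< p` -/
theorem FF.eq_zero {p q : ℕ} (h : q < p) (f : (FF k p).obj q) : f = 0 := by
  apply FF.ext
  intro g
  have h1 : ∀ b g, FF.fn f (g * FreeGroup.of b) = FF.fn f g := by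
    intro b g
    rw [← ι_coe]
    exact FF.inv f (dg_of_lt h _) g
  have h2 := const_of_rdiff h1 1 g
  rw [one_mul] at h2
  rw [h2, FF.van f (one_mem_MInf q)]
  rfl

/-- the inclusion `FF (p + 1) ⊆ FF p` -/
noncomputable def FF.incl (p : ℕ) : Hom (FF k (p + 1)) (FF k p) where
  app q :=
    { toFun := fun f => FF.mk (FF.fn f) (fun _ => FF.van f)
        (fun m hm g => FF.inv f (by
          obtain ⟨p', hp, h⟩ := hm
          exact ⟨p', Nat.lt_succ_of_lt hp, h⟩) g)
      map_add' := fun _ _ => rfl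
      map_smul' := fun _ _ => rfl }
  nat _ _ := rfl

@[simp] theorem FF.fn_incl {p q : ℕ} (f : (FF k (p + 1)).obj q) (g : UM q) :
    FF.fn ((FF.incl p).app q f) g = FF.fn f g := rfl

/-- the difference along an element of `M q` -/
noncomputable def FF.df {p q : ℕ} (f : (FF k p).obj q) (m : M q) : (FF k 0).obj q :=
  FF.mk0 (fun g => FF.fn f (g * ι m) - FF.fn f g) (fun g hg => by
    rw [FF.van f (MInf.mul hg m), FF.van f hg, sub_zero])

@[simp] theorem FF.fn_df {p q : ℕ} (f : (FF k p).obj q) (m : M q) (g : UM q) :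
    FF.fn (FF.df f m) g = FF.fn f (g * ι m) - FF.fn f g := rfl

/-- the symbol map -/
noncomputable def FF.gr (p : ℕ) : Hom (FF k p) (piCos (NB p) (Dp p (FF k 0))) where
  app q :=
    { toFun := fun f c => ⟨fun θ => FF.df f (c.1.1.map θ), fun θ hθ => by
        apply FF.ext
        intro g
        rw [FF.fn_df, FF.inv f (dg_of_not_surj θ hθ _), sub_self]
        rfl⟩
      map_add' := fun f f' => by
        funext c
        apply Subtype.ext
        funext θ
        apply FF.ext
        intro g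
        show FF.fn (FF.df (f + f') _) g = FF.fn (FF.df f _) g + FF.fn (FF.df f' _) g
        rw [FF.fn_df, FF.fn_df, FF.fn_df, FF.fn_add, FF.fn_add]
        abel
      map_smul' := fun a f => by
        funext c
        apply Subtype.ext
        funext θ
        apply FF.ext
        intro g
        show FF.fn (FF.df (a • f) _) g = a • FF.fn (FF.df f _) g
        rw [FF.fn_df, FF.fn_df, FF.fn_smul, FF.fn_smul, smul_sub] }
  nat {q r} α f := by
    funext c
    apply Subtype.ext
    funext θ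
    apply FF.ext
    intro g
    show FF.fn ((FF k p).map α f) (g * ι (c.1.1.map θ)) - FF.fn ((FF k p).map α f) g =
      FF.fn f (UM.map α g * ι (c.1.1.map (θ.comp α))) - FF.fn f (UM.map α g)
    rw [FF.fn_map, FF.fn_map, map_mul, UM.map_ι, M.map_map]
    rfl

theorem FF.gr_apply {p q : ℕ} (f : (FF k p).obj q) (c : NB p) (θ : Op q p) :
    ((FF.gr p).app q f c).1 θ = FF.df f (c.1.1.map θ) := rfl

/-- exactness in the middle -/
theorem FF.gr_exact {p q : ℕ} (f : (FF k p).obj q) (h : (FF.gr p).app q f = 0) :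
    ∃ f' : (FF k (p + 1)).obj q, (FF.incl p).app q f' = f := by
  have h0 : ∀ (c : NB p) (θ : Op q p) (g : UM q),
      FF.fn f (g * ι (c.1.1.map θ)) = FF.fn f g := by
    intro c θ g
    have h1 : ((FF.gr p).app q f c).1 θ = 0 := by rw [h]; rfl
    rw [FF.gr_apply] at h1
    have h2 := FF.fn_df f (c.1.1.map θ) g
    rw [h1, FF.fn_zero] at h2
    exact (sub_eq_zero.1 h2.symm)
  refine ⟨FF.mk (FF.fn f) (fun _ => FF.van f) ?_, rfl⟩
  rintro m ⟨p', hp, θ, c, rfl⟩ g
  rcases Nat.lt_or_ge p' p with h1 | h1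
  · exact FF.inv f ⟨p', h1, θ, c, rfl⟩ g
  · obtain rfl : p' = p := by omega
    clear hp h1 h
    induction c using M.ind_on generalizing g with
    | one => rw [M.map_one, map_one, mul_one]
    | mul b F ih =>
      rw [M.map_mul, map_mul, ← mul_assoc, ih]
      by_cases hb : Dg p' b.1
      · exact FF.inv f (hb.map θ) g
      · exact h0 ⟨b, hb⟩ θ g

/-- surjectivity -/
theorem FF.gr_surjective (p q : ℕ) : Function.Surjective ((FF.gr (k := k) p).app q) := by
  classical
  intro h
  let P : B q → Prop := fun b => ∃ (c : NB p) (θ : Op q p), Function.Surjective θ ∧ b.1 = c.1.1.map θ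
  let Fb : B q → UM q → k := fun b g =>
    if hb : P b then FF.fn ((h hb.choose).1 hb.choose_spec.choose) g else 0
  have hFb : ∀ (b : B q) (c : NB p) (θ : Op q p), Function.Surjective θ → b.1 = c.1.1.map θ →
      ∀ g, Fb b g = FF.fn ((h c).1 θ) g := by
    intro b c θ hθ hb g
    have hP : P b := ⟨c, θ, hθ, hb⟩
    have e1 := hP.choose_spec.choose_spec
    have e2 := ez_unique e1.1 hP.choose.2 (e1.2.symm.trans hb)
    have e3 : hP.choose = c := Subtype.ext (Subtype.ext e2.2)
    show (if hb : P b then FF.fn ((h hb.choose).1 hb.choose_spec.choose) g else 0) = _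
    rw [dif_pos hP, e2.1, e3]
  have hF0 : ∀ b, ¬ P b → ∀ g, Fb b g = 0 := by
    intro b hb g
    show (if hb : P b then FF.fn ((h hb.choose).1 hb.choose_spec.choose) g else 0) = 0
    rw [dif_neg hb]
  obtain ⟨f, h1, h2⟩ := tree_UM Fb (by
    intro b g hg
    by_cases hb : P b
    · obtain ⟨c, θ, hθ, hc⟩ := hb
      rw [hFb b c θ hθ hc g, FF.van _ hg]
    · exact hF0 b hb g)
  have h3 : ∀ m : M q, Dg p m → ∀ g : UM q, f (g * ι m) = f g := by
    intro m
    induction m using M.ind_on with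
    | one => intro _ g; rw [map_one, mul_one]
    | mul b F ih =>
      intro hm g
      obtain ⟨hm1, hm2⟩ := hm.factor
      rw [map_mul, ← mul_assoc, ih hm2, ι_coe, h2, hF0 b, add_zero]
      rintro ⟨c, θ, hθ, hc⟩
      rw [hc] at hm1
      exact not_dg_map c.2 θ hθ hm1
  refine ⟨FF.mk f h1 h3, ?_⟩
  funext c
  apply Subtype.ext
  funext θ
  apply FF.ext
  intro g
  rw [FF.gr_apply, FF.fn_df, FF.fn_mk, FF.fn_mk]
  by_cases hθ : Function.Surjective θ
  · have e : (ι (c.1.1.map θ) : UM q) = FreeGroup.of (⟨c.1.1.map θ, ind_surj c.1.2 θ hθ⟩ : B q) :=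
      ι_coe (⟨c.1.1.map θ, ind_surj c.1.2 θ hθ⟩ : B q)
    rw [e, h2, add_sub_cancel_left]
    exact hFb _ c θ hθ rfl g
  · rw [h3 _ (dg_of_not_surj θ hθ _), sub_self, (h c).2 θ hθ]
    rfl

/-- The positive part of the filtration has no cohomology in degrees `≤ j`. -/
theorem FF.ac {j : ℕ} (hC : ∀ i < j, (FF k 0).Z i ≤ (FF k 0).Bd i) {p : ℕ} (hp : 1 ≤ p) {i : ℕ}
    (hi : i ≤ j) : (FF k p).Z i ≤ (FF k p).Bd i := by
  obtain ⟨n, hn⟩ : ∃ n, j + 1 ≤ p + n := ⟨j + 1, by omega⟩
  induction n generalizing p with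
  | zero =>
    intro x _
    rw [FF.eq_zero (by omega) x]
    exact zero_mem _
  | succ n ih =>
    refine ses_mid (FF.incl p) (FF.gr p) (fun q b hb => FF.gr_exact b hb) ?_
      (fun q => FF.gr_surjective p q) (ih (p := p + 1) (by omega) (by omega)) ?_
    · intro q a b hab
      apply FF.ext
      intro g
      rw [← FF.fn_incl, hab, FF.fn_incl]
    · exact pi_ac _ _ (Dp_ac _ j hC p _ (by omega))

end Vale.Agent.P263.GC
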