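import Vale.Agent.P263.S.Htpy
import Mathlib.LinearAlgebra.Pi

/-!
# P263, block GC: acyclicity of cosimplicial modules, cells

`A.Z i ≤ A.Bd i` says that the cohomology of `A` vanishes in degree `i`.  Short exact sequences,
sub-objects, products, and the cell object `Dp p C` : functions on the surjections `[q] → [p]` with
values in `C`, whose cohomology is that of `C` shifted by `p`.
-/

namespace Vale.Agent.P263.GC

open Vale.Agent.P263.S

variable {R : Type} [CommRing R]

/-! ### short exact sequences -/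

section ses

variable {A B C : CosMod R}

/-- middle term -/
theorem ses_mid (f : Hom A B) (g : Hom B C)
    (hex : ∀ p (b : B.obj p), g.app p b = 0 → ∃ a, f.app p a = b)
    (hinj : ∀ p, Function.Injective (f.app p)) (hsur : ∀ p, Function.Surjective (g.app p))
    {i : ℕ} (hA : A.Z i ≤ A.Bd i) (hC : C.Z i ≤ C.Bd i) : B.Z i ≤ B.Bd i := by
  intro x hx
  have hg := hC (g.app_mem_Z hx)
  have key : ∀ a : A.obj i, B.d i (f.app i a) = 0 → a ∈ A.Bd i := by
    intro a ha
    apply hA
    rw [CosMod.mem_Z]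
    apply hinj
    rw [f.app_d, ha, map_zero]
  cases i with
  | zero =>
    rw [CosMod.mem_Bd_zero] at hg
    obtain ⟨a, rfl⟩ := hex _ _ hg
    have := key a hx
    rw [CosMod.mem_Bd_zero] at this
    rw [this, map_zero]
    exact zero_mem _
  | succ i =>
    obtain ⟨c, hc⟩ := hg
    obtain ⟨b, rfl⟩ := hsur _ c
    have h0 : g.app (i + 1) (x - B.d i b) = 0 := by
      rw [map_sub, g.app_d, hc, sub_self]
    obtain ⟨a, ha⟩ := hex _ _ h0
    have h1 : B.d (i + 1) (f.app (i + 1) a) = 0 := by
      rw [ha, map_sub, B.d_d, sub_zero]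
      exact hx
    obtain ⟨a', ha'⟩ := key a h1
    refine ⟨b + f.app i a', ?_⟩
    rw [map_add, ← f.app_d, ha', ha]
    abel

/-- left term, degree `0` -/
theorem ses_left_zero (f : Hom A B) (hinj : ∀ p, Function.Injective (f.app p))
    (hB : B.Z 0 ≤ B.Bd 0) : A.Z 0 ≤ A.Bd 0 := by
  intro x hx
  have := hB (f.app_mem_Z hx)
  rw [CosMod.mem_Bd_zero] at this ⊢
  apply hinj
  rw [this, map_zero]

/-- left term, positive degree -/
theorem ses_left_succ (f : Hom A B) (g : Hom B C)
    (hex : ∀ p (b : B.obj p), g.app p b = 0 → ∃ a, f.app p a = b)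
    (hz : ∀ p a, g.app p (f.app p a) = 0)
    (hinj : ∀ p, Function.Injective (f.app p)) (hsur : ∀ p, Function.Surjective (g.app p))
    {i : ℕ} (hB : B.Z (i + 1) ≤ B.Bd (i + 1)) (hC : C.Z i ≤ C.Bd i) :
    A.Z (i + 1) ≤ A.Bd (i + 1) := by
  intro x hx
  obtain ⟨b, hb⟩ := hB (f.app_mem_Z hx)
  have hg : g.app i b ∈ C.Z i := by
    rw [CosMod.mem_Z, ← g.app_d, hb, hz]
  have fin : ∀ b', B.d i b' = f.app (i + 1) x → g.app i b' = 0 → x ∈ A.Bd (i + 1) := by
    intro b' h1 h2
    obtain ⟨a, rfl⟩ := hex _ _ h2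
    refine ⟨a, hinj _ ?_⟩
    rw [f.app_d, h1]
  have hg' := hC hg
  cases i with
  | zero => exact fin b hb hg'
  | succ i =>
    obtain ⟨c, hc⟩ := hg'
    obtain ⟨b', rfl⟩ := hsur _ c
    refine fin (b - B.d i b') ?_ ?_
    · rw [map_sub, B.d_d, sub_zero, hb]
    · rw [map_sub, g.app_d, hc, sub_self]

/-- transport along a levelwise bijection -/
theorem ac_of_bij (f : Hom A B) (hf : ∀ p, Function.Bijective (f.app p)) {i : ℕ}
    (hB : B.Z i ≤ B.Bd i) : A.Z i ≤ A.Bd i := by
  intro x hx
  have h := hB (f.app_mem_Z hx)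
  cases i with
  | zero =>
    rw [CosMod.mem_Bd_zero] at h ⊢
    apply (hf _).1
    rw [h, map_zero]
  | succ i =>
    obtain ⟨b, hb⟩ := h
    obtain ⟨a, rfl⟩ := (hf _).2 b
    refine ⟨a, (hf _).1 ?_⟩
    rw [f.app_d, hb]

theorem ac_of_bij' (f : Hom A B) (hf : ∀ p, Function.Bijective (f.app p)) {i : ℕ}
    (hA : A.Z i ≤ A.Bd i) : B.Z i ≤ B.Bd i := by
  intro x hx
  obtain ⟨a, rfl⟩ := (hf _).2 x
  have ha : a ∈ A.Z i := by
    rw [CosMod.mem_Z]
    apply (hf _).1
    rw [f.app_d, map_zero]
    exact hx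
  exact f.app_mem_Bd (hA ha)

end ses

/-! ### sub-objects -/

/-- the sub-object given by a family of submodules -/
def sub (A : CosMod R) (S : ∀ p, Submodule R (A.obj p))
    (h : ∀ {p q : ℕ} (f : Op p q) (x : A.obj p), x ∈ S p → A.map f x ∈ S q) : CosMod R where
  obj p := S p
  map f := (A.map f).restrict (h f)
  map_id := by
    intro p
    ext x
    show A.map OrderHom.id x.1 = x.1
    rw [A.map_id_apply]
  map_comp := by
    intro p q r f g
    ext x
    show A.map (f.comp g) x.1 = A.map f (A.map g x.1)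
    rw [A.map_map]

/-- the inclusion -/
def subHom (A : CosMod R) (S : ∀ p, Submodule R (A.obj p))
    (h : ∀ {p q : ℕ} (f : Op p q) (x : A.obj p), x ∈ S p → A.map f x ∈ S q) :
    Hom (sub A S h) A := ⟨fun p => (S p).subtype, fun _ _ => rfl⟩

/-! ### products -/

/-- the product of copies of `A` -/
def piCos (ι : Type) (A : CosMod R) : CosMod R where
  obj p := ι → A.obj p
  map f := LinearMap.pi fun i => (A.map f).comp (LinearMap.proj i)
  map_id := by
    intro p
    ext x i
    show A.map OrderHom.id (x i) = x i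
    rw [A.map_id_apply]
  map_comp := by
    intro p q r f g
    ext x i
    show A.map (f.comp g) (x i) = A.map f (A.map g (x i))
    rw [A.map_map]

/-- the projections -/
def piProj {ι : Type} (A : CosMod R) (i : ι) : Hom (piCos ι A) A :=
  ⟨fun _ => LinearMap.proj i, fun _ _ => rfl⟩

theorem pi_d {ι : Type} (A : CosMod R) (p : ℕ) (x : (piCos ι A).obj p) (i : ι) :
    ((piCos ι A).d p x) i = A.d p (x i) := (piProj A i).app_d p x

theorem pi_ac (ι : Type) (A : CosMod R) {i : ℕ} (h : A.Z i ≤ A.Bd i) :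
    (piCos ι A).Z i ≤ (piCos ι A).Bd i := by
  intro x hx
  have h1 : ∀ k, x k ∈ A.Bd i := fun k => h ((piProj A k).app_mem_Z hx)
  cases i with
  | zero =>
    rw [CosMod.mem_Bd_zero]
    funext k
    exact h1 k
  | succ i =>
    choose y hy using h1
    refine ⟨y, ?_⟩
    funext k
    exact (pi_d A i y k).trans (hy k)

/-! ### functions on the simplex `[p]` -/

/-- `q ↦` functions on the monotone maps `[q] → [p]` with values in `C` -/
def Fn (p : ℕ) (C : CosMod R) : CosMod R where
  obj q := Op q p → C.obj q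
  map {q r} α := LinearMap.pi fun θ => (C.map α).comp (LinearMap.proj (θ.comp α))
  map_id := by
    intro q
    ext x θ
    show C.map OrderHom.id (x (θ.comp OrderHom.id)) = x θ
    rw [C.map_id_apply]
    rfl
  map_comp := by
    intro q r s f g
    ext x θ
    show C.map (f.comp g) (x (θ.comp (f.comp g))) = C.map f (C.map g (x ((θ.comp f).comp g)))
    rw [C.map_map]
    rfl

theorem Fn_map (p : ℕ) (C : CosMod R) {q r : ℕ} (α : Op q r) (x : (Fn p C).obj q) (θ : Op r p) :
    (Fn p C).map α x θ = C.map α (x (θ.comp α)) := rfl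

/-- functions supported on `T` -/
def FnS (p : ℕ) (C : CosMod R) (T : ∀ q, Op q p → Prop)
    (hT : ∀ {q r : ℕ} (α : Op q r) (θ : Op r p), T q (θ.comp α) → T r θ) : CosMod R :=
  sub (Fn p C) (fun q =>
    { carrier := {x | ∀ θ, ¬ T q θ → x θ = 0}
      add_mem' := fun {a b} ha hb θ h => by
        show a θ + b θ = 0
        rw [ha θ h, hb θ h, add_zero]
      zero_mem' := fun _ _ => rfl
      smul_mem' := fun c x hx θ h => by
        show c • x θ = 0
        rw [hx θ h, smul_zero] })
    (fun {q r} α x hx θ h => by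
      show C.map α (x (θ.comp α)) = 0
      rw [hx _ fun h' => h (hT α θ h'), map_zero])

/-- the support condition of `Dp` : surjective -/
def TD (p : ℕ) (q : ℕ) (θ : Op q p) : Prop := ∀ y, ∃ x, θ x = y

/-- the support condition of `Lp` : everything but `0` is hit -/
def TL (p : ℕ) (q : ℕ) (θ : Op q p) : Prop := ∀ y, y ≠ 0 → ∃ x, θ x = y

theorem TD_comp {p q r : ℕ} (α : Op q r) (θ : Op r p) (h : TD p q (θ.comp α)) : TD p r θ :=
  fun y => let ⟨x, hx⟩ := h y; ⟨α x, hx⟩

theorem TL_comp {p q r : ℕ} (α : Op q r) (θ : Op r p) (h : TL p q (θ.comp α)) : TL p r θ :=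
  fun y hy => let ⟨x, hx⟩ := h y hy; ⟨α x, hx⟩

/-- the cell of dimension `p` with values in `C` -/
def Dp (p : ℕ) (C : CosMod R) : CosMod R := FnS p C (TD p) TD_comp

/-- the simplex of dimension `p` relative to the horn, with values in `C` -/
def Lp (p : ℕ) (C : CosMod R) : CosMod R := FnS p C (TL p) TL_comp

/-- `θ` made `0` where `χ` is `0` -/
def cut {q p : ℕ} (χ : Op q 1) (θ : Op q p) : Op q p where
  toFun x := if χ x = 0 then 0 else θ x
  monotone' x y h := by
    have h1 := χ.monotone h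
    have h2 := θ.monotone h
    show (if χ x = 0 then (0 : Fin (p + 1)) else θ x) ≤ (if χ y = 0 then 0 else θ y)
    by_cases hx : χ x = 0
    · rw [if_pos hx]
      exact Fin.zero_le _
    · rw [if_neg hx]
      by_cases hy : χ y = 0
      · rw [hy] at h1
        exact absurd (le_antisymm h1 (Fin.zero_le _)) hx
      · rw [if_neg hy]
        exact h2

theorem cut_apply {q p : ℕ} (χ : Op q 1) (θ : Op q p) (x : Fin (q + 1)) :
    cut χ θ x = if χ x = 0 then 0 else θ x := rfl

theorem TL_cut {q p : ℕ} (χ : Op q 1) (θ : Op q p) (h : TL p q (cut χ θ)) : TL p q θ := by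
  intro y hy
  obtain ⟨x, hx⟩ := h y hy
  refine ⟨x, ?_⟩
  rw [cut_apply] at hx
  by_cases h0 : χ x = 0
  · rw [if_pos h0] at hx
    exact absurd hx.symm hy
  · rwa [if_neg h0] at hx

/-- the contraction of `Lp` -/
def LpPrism (p : ℕ) (C : CosMod R) : Prism (Lp p C) (Lp p C) where
  h q χ := ((LinearMap.funLeft R (C.obj q) (cut χ : Op q p → Op q p))).restrict
    (fun x hx θ h => hx _ fun h' => h (TL_cut χ θ h'))
  nat := by
    intro q r α χ x
    apply Subtype.ext
    funext θ
    show C.map α (x.1 ((cut χ θ).comp α)) = C.map α (x.1 (cut (χ.comp α) (θ.comp α)))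
    rfl

theorem Lp_ac {p : ℕ} (hp : 1 ≤ p) (C : CosMod R) (i : ℕ) : (Lp p C).Z i ≤ (Lp p C).Bd i := by
  refine CosMod.Z_le_Bd_of_prism (LpPrism p C) (fun q x => ?_) (fun q x => ?_) i
  · apply Subtype.ext
    funext θ
    show x.1 (cut (c1 q) θ) = x.1 θ
    congr 1
  · apply Subtype.ext
    funext θ
    show x.1 (cut (c0 q) θ) = 0
    apply x.2
    intro h
    obtain ⟨y, hy⟩ := h (Fin.last p) (by
      intro h
      have := congrArg Fin.val h
      simp at this
      try omega)
    rw [cut_apply, c0_val, if_pos rfl] at hy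
    have := congrArg Fin.val hy
    simp at this
    try omega

/-- the inclusion `Dp ⊆ Lp` -/
def DL (p : ℕ) (C : CosMod R) : Hom (Dp p C) (Lp p C) where
  app q := (LinearMap.id : (Op q p → C.obj q) →ₗ[R] (Op q p → C.obj q)).restrict
    (fun _ hx θ h => hx θ fun h' => h fun y _ => h' y)
  nat _ _ := rfl

theorem DL_val (p : ℕ) (C : CosMod R) (q : ℕ) (x : (Dp p C).obj q) :
    ((DL p C).app q x).1 = x.1 := rfl

/-- the restriction of functions to the face opposite to `0` -/
def LD (p : ℕ) (C : CosMod R) : Hom (Lp (p + 1) C) (Dp p C) where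
  app q := (LinearMap.funLeft R (C.obj q) (fun s : Op q p => (dl p 0).comp s)).restrict
    (fun x hx s h => by
      show x ((dl p 0).comp s) = 0
      apply hx
      intro h'
      apply h
      intro y
      obtain ⟨z, hz⟩ := h' (dl p 0 y) (by
        intro h0
        have := congrArg Fin.val h0
        rw [dl_val] at this
        simp at this)
      refine ⟨z, ?_⟩
      have h1 := congrArg Fin.val hz
      have h2 : (dl p 0 (s z)).1 = (dl p 0 y).1 := h1
      rw [dl_val, dl_val] at h2
      apply Fin.ext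
      simpa using h2)
  nat _ _ := rfl

theorem LD_val (p : ℕ) (C : CosMod R) (q : ℕ) (x : (Lp (p + 1) C).obj q) (s : Op q p) :
    ((LD p C).app q x).1 s = x.1 ((dl p 0).comp s) := rfl

/-- subtract one from a map which avoids `0` -/
def pre {q p : ℕ} (θ : Op q (p + 1)) : Op q p where
  toFun x := ⟨(θ x).1 - 1, by have := (θ x).2; omega⟩
  monotone' x y h := by
    have := θ.monotone h
    simp only [Fin.le_def] at *
    omega

theorem dl_pre {q p : ℕ} (θ : Op q (p + 1)) (h : ∀ x, θ x ≠ 0) : (dl p 0).comp (pre θ) = θ := by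
  apply OrderHom.ext
  funext x
  apply Fin.ext
  show (dl p 0 (pre θ x)).1 = (θ x).1
  rw [dl_val]
  have h1 : (pre θ x).1 = (θ x).1 - 1 := rfl
  have h2 : (θ x).1 ≠ 0 := fun h0 => h x (Fin.ext h0)
  simp only [Nat.not_lt_zero, if_false, h1]
  omega

theorem pre_dl {q p : ℕ} (s : Op q p) : pre ((dl p 0).comp s) = s := by
  apply OrderHom.ext
  funext x
  apply Fin.ext
  show (dl p 0 (s x)).1 - 1 = (s x).1
  rw [dl_val]
  simp

theorem DLD_zero (p : ℕ) (C : CosMod R) (q : ℕ) (x : (Dp (p + 1) C).obj q) :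
    (LD p C).app q ((DL (p + 1) C).app q x) = 0 := by
  apply Subtype.ext
  funext s
  show x.1 ((dl p 0).comp s) = 0
  apply x.2
  intro h
  obtain ⟨z, hz⟩ := h 0
  have h1 := congrArg Fin.val hz
  have h2 : (dl p 0 (s z)).1 = 0 := h1
  rw [dl_val] at h2
  simp at h2

theorem DLD_exact (p : ℕ) (C : CosMod R) (q : ℕ) (x : (Lp (p + 1) C).obj q)
    (hx : (LD p C).app q x = 0) : ∃ y, (DL (p + 1) C).app q y = x := by
  refine ⟨⟨x.1, fun θ h => ?_⟩, Subtype.ext rfl⟩
  by_cases hL : TL (p + 1) q θ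
  · have h0 : ∀ z, θ z ≠ 0 := by
      intro z hz
      apply h
      intro y
      by_cases hy : y = 0
      · exact ⟨z, by rw [hz, hy]⟩
      · exact hL y hy
    have := congrFun (congrArg Subtype.val hx) (pre θ)
    rw [LD_val, dl_pre θ h0] at this
    exact this
  · exact x.2 θ hL

theorem LD_surj (p : ℕ) (C : CosMod R) (q : ℕ) : Function.Surjective ((LD p C).app q) := by
  classical
  intro y
  refine ⟨⟨fun θ => if ∀ z, θ z ≠ 0 then y.1 (pre θ) else 0, fun θ h => ?_⟩, ?_⟩
  · show (if ∀ z, θ z ≠ 0 then y.1 (pre θ) else 0) = 0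
    by_cases h0 : ∀ z, θ z ≠ 0
    · rw [if_pos h0]
      apply y.2
      intro h'
      apply h
      intro w hw
      obtain ⟨z, hz⟩ := h' ⟨w.1 - 1, by have := w.2; omega⟩
      refine ⟨z, Fin.ext ?_⟩
      have h1 := congrArg Fin.val hz
      have h2 : (θ z).1 - 1 = w.1 - 1 := h1
      have h3 : (θ z).1 ≠ 0 := fun h4 => h0 z (Fin.ext h4)
      have h5 : w.1 ≠ 0 := fun h4 => hw (Fin.ext h4)
      omega
    · rw [if_neg h0]
  · apply Subtype.ext
    funext s
    show (if ∀ z, (dl p 0).comp s z ≠ 0 then y.1 (pre ((dl p 0).comp s)) else 0) = y.1 s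
    rw [if_pos, pre_dl]
    intro z hz
    have h1 := congrArg Fin.val hz
    have h2 : (dl p 0 (s z)).1 = 0 := h1
    rw [dl_val] at h2
    simp at h2

/-- the unique map `[q] → [0]` -/
def pt (q : ℕ) : Op q 0 := ⟨fun _ => 0, fun _ _ _ => le_rfl⟩

theorem eq_pt {q : ℕ} (θ : Op q 0) : θ = pt q := by
  apply OrderHom.ext
  funext x
  exact Subsingleton.elim (α := Fin 1) _ _

/-- evaluation at the unique map -/
def D0 (C : CosMod R) : Hom (Dp 0 C) C where
  app q := (LinearMap.proj (pt q)).comp (Submodule.subtype _)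
  nat {q r} α x := by
    show C.map α (x.1 ((pt r).comp α)) = C.map α (x.1 (pt q))
    rw [eq_pt ((pt r).comp α)]

theorem D0_bij (C : CosMod R) (q : ℕ) : Function.Bijective ((D0 C).app q) := by
  constructor
  · intro x y h
    apply Subtype.ext
    funext θ
    rw [eq_pt θ]
    exact h
  · intro c
    refine ⟨⟨fun _ => c, fun θ h => ?_⟩, rfl⟩
    exact absurd (fun y => ⟨0, Subsingleton.elim (α := Fin 1) _ _⟩) h

/-- **Cells shift the vanishing range.** -/
theorem Dp_ac (C : CosMod R) (j : ℕ) (hC : ∀ i < j, C.Z i ≤ C.Bd i) :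
    ∀ p i, i < j + p → (Dp p C).Z i ≤ (Dp p C).Bd i := by
  intro p
  induction p with
  | zero =>
    intro i hi
    exact ac_of_bij (D0 C) (D0_bij C) (hC i (by omega))
  | succ p ih =>
    intro i hi
    have hinj : ∀ q, Function.Injective ((DL (p + 1) C).app q) := by
      intro q x y h
      exact Subtype.ext (congrArg Subtype.val h :)
    cases i with
    | zero => exact ses_left_zero (DL (p + 1) C) hinj (Lp_ac (by omega) C 0)
    | succ i =>
      exact ses_left_succ (DL (p + 1) C) (LD p C) (fun q b hb => DLD_exact p C q b hb)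
        (fun q a => DLD_zero p C q a) hinj (LD_surj p C) (Lp_ac (by omega) C (i + 1))
        (ih i (by omega))

end Vale.Agent.P263.GC
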