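import Mathlib
import Vale.Agent.P263.S.Htpy
import Vale.Agent.P263.E.Simp

/-! # P263, block GC: cochains of a simplicial set which vanish on cycles, and the comparison of
two homotopic self maps on a directed union

Over a field a cochain which kills all cycles is a coboundary (`mem_Bd_of_ev`).  If `X` is the
directed union of copies `j n : M → X` of `M` and `R`, `L : X → X` restrict on every copy to two
self maps of `M` which are simplicially homotopic, then `f ∘ R - f ∘ L` is a coboundary for every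
cocycle `f` of `X` (`km`).
-/

namespace Vale.Agent.P263.GC

open Vale.Agent.P263.S Vale.Agent.P263.E

variable {k : Type} [Field k]

/-- the boundary of the chains of a simplicial set -/
noncomputable def bdy (X : SS) (p : ℕ) : (X.obj (p + 1) →₀ k) →ₗ[k] (X.obj p →₀ k) :=
  Finsupp.lift (X.obj p →₀ k) k (X.obj (p + 1)) fun x =>
    ∑ i ∈ Finset.range (p + 2), sn i (Finsupp.single (X.map (dl p i) x) (1 : k))

/-- the evaluation of a cochain on chains -/
noncomputable def ev {X : SS} {p : ℕ} (f : X.obj p → k) : (X.obj p →₀ k) →ₗ[k] k :=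
  Finsupp.lift k k (X.obj p) f

/-- the coboundary of a function -/
def cd (X : SS) (p : ℕ) (f : X.obj p → k) : X.obj (p + 1) → k :=
  fun x => ∑ i ∈ Finset.range (p + 2), sn i (f (X.map (dl p i) x))

theorem d_eq (X : SS) (p : ℕ) (f : X.obj p → k) : (SS.F k X).d p f = cd X p f := by
  funext x
  exact SS.F_d (X := X) f x

theorem mem_Z_iff {X : SS} {p : ℕ} {f : X.obj p → k} :
    (show (SS.F k X).obj p from f) ∈ (SS.F k X).Z p ↔ cd X p f = 0 := by
  rw [← d_eq]
  exact CosMod.mem_Z

theorem mem_Bd_succ_iff {X : SS} {p : ℕ} {f : X.obj (p + 1) → k} :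
    (show (SS.F k X).obj (p + 1) from f) ∈ (SS.F k X).Bd (p + 1) ↔ ∃ u, cd X p u = f := by
  constructor
  · rintro ⟨u, hu⟩
    exact ⟨u, (d_eq X p u).symm.trans hu⟩
  · rintro ⟨u, hu⟩
    exact ⟨u, (d_eq X p u).trans hu⟩

theorem mem_Bd_zero_iff {X : SS} {f : X.obj 0 → k} :
    (show (SS.F k X).obj 0 from f) ∈ (SS.F k X).Bd 0 ↔ f = 0 := CosMod.mem_Bd_zero

theorem ev_single {X : SS} {p : ℕ} (f : X.obj p → k) (x : X.obj p) (a : k) :
    ev f (Finsupp.single x a) = a * f x := by
  simp [ev]

theorem bdy_single (X : SS) (p : ℕ) (x : X.obj (p + 1)) (a : k) :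
    bdy X p (Finsupp.single x a) =
      a • ∑ i ∈ Finset.range (p + 2), sn i (Finsupp.single (X.map (dl p i) x) (1 : k)) := by
  simp [bdy]

theorem ev_bdy {X : SS} {p : ℕ} (f : X.obj p → k) (c : X.obj (p + 1) →₀ k) :
    ev f (bdy X p c) = ev (cd X p f) c := by
  have key : (ev f).comp (bdy X p) = ev (cd X p f) := by
    apply Finsupp.lhom_ext
    intro x a
    rw [LinearMap.comp_apply, bdy_single, ev_single, map_smul, map_sum, smul_eq_mul]
    congr 1
    refine Finset.sum_congr rfl fun i _ => ?_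
    rw [CosMod.sn_lin, ev_single, one_mul]
  exact LinearMap.congr_fun key c

theorem mem_Bd_zero_of_ev {X : SS} {f : X.obj 0 → k} (h : ∀ c, ev f c = 0) :
    (show (SS.F k X).obj 0 from f) ∈ (SS.F k X).Bd 0 := by
  rw [mem_Bd_zero_iff]
  funext x
  have := h (Finsupp.single x 1)
  rwa [ev_single, one_mul] at this

/-- over a field, a cochain which kills all cycles is a coboundary -/
theorem mem_Bd_of_ev {X : SS} {p : ℕ} {f : X.obj (p + 1) → k}
    (h : ∀ c, bdy X p c = 0 → ev f c = 0) :
    (show (SS.F k X).obj (p + 1) from f) ∈ (SS.F k X).Bd (p + 1) := by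
  have h1 : ev f ∈ (LinearMap.ker (bdy (k := k) X p)).dualAnnihilator := by
    rw [Submodule.mem_dualAnnihilator]
    intro c hc
    exact h c (LinearMap.mem_ker.1 hc)
  rw [← LinearMap.range_dualMap_eq_dualAnnihilator_ker] at h1
  obtain ⟨u, hu⟩ := h1
  rw [mem_Bd_succ_iff]
  refine ⟨fun x => u (Finsupp.single x 1), ?_⟩
  funext x
  have h2 := LinearMap.congr_fun hu (Finsupp.single x 1)
  rw [ev_single, one_mul, LinearMap.dualMap_apply, bdy_single, one_smul, map_sum] at h2
  rw [← h2]
  refine Finset.sum_congr rfl fun i _ => ?_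
  rw [CosMod.sn_lin]

/-- the map on chains -/
noncomputable def pf {X Y : SS} (g : SS.Map X Y) (p : ℕ) : (X.obj p →₀ k) →ₗ[k] (Y.obj p →₀ k) :=
  Finsupp.lmapDomain k k (fun x => g.app x)

theorem pf_single {X Y : SS} (g : SS.Map X Y) (p : ℕ) (x : X.obj p) (a : k) :
    pf g p (Finsupp.single x a) = Finsupp.single (g.app x) a := by
  simp [pf, Finsupp.lmapDomain_apply, Finsupp.mapDomain_single]

theorem bdy_pf {X Y : SS} (g : SS.Map X Y) (p : ℕ) (c : X.obj (p + 1) →₀ k) :
    bdy Y p (pf g (p + 1) c) = pf g p (bdy X p c) := by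
  have key : (bdy (k := k) Y p).comp (pf g (p + 1)) = (pf g p).comp (bdy X p) := by
    apply Finsupp.lhom_ext
    intro x a
    rw [LinearMap.comp_apply, LinearMap.comp_apply, pf_single, bdy_single, bdy_single, map_smul,
      map_sum]
    congr 1
    refine Finset.sum_congr rfl fun i _ => ?_
    rw [CosMod.sn_lin, pf_single, g.nat]
  exact LinearMap.congr_fun key c

theorem ev_pf {X Y : SS} (g : SS.Map X Y) (p : ℕ) (f : Y.obj p → k) (c : X.obj p →₀ k) :
    ev f (pf g p c) = ev (X := X) (p := p) (fun x => f (g.app x)) c := by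
  have key : (ev f).comp (pf g p) = ev (X := X) (p := p) (fun x => f (g.app x)) := by
    apply Finsupp.lhom_ext
    intro x a
    rw [LinearMap.comp_apply, pf_single, ev_single, ev_single]
  exact LinearMap.congr_fun key c

theorem pf_injective {X Y : SS} (g : SS.Map X Y) (hg : g.Inj) (p : ℕ) :
    Function.Injective (pf (k := k) g p) :=
  Finsupp.mapDomain_injective (hg p)

theorem mem_range_pf {X Y : SS} (g : SS.Map X Y) (p : ℕ) (c : Y.obj p →₀ k)
    (h : ∀ y ∈ c.support, ∃ x, g.app x = y) : ∃ b, pf g p b = c := by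
  classical
  rw [← Finsupp.sum_single c, Finsupp.sum]
  have : ∀ s : Finset (Y.obj p), (∀ y ∈ s, ∃ x, g.app x = y) →
      ∃ b, pf g p b = ∑ y ∈ s, Finsupp.single y (c y) := by
    intro s
    induction s using Finset.induction_on with
    | empty => intro _; exact ⟨0, by simp⟩
    | insert a s ha ih =>
      intro hs
      obtain ⟨b, hb⟩ := ih fun y hy => hs y (Finset.mem_insert_of_mem hy)
      obtain ⟨x, hx⟩ := hs a (Finset.mem_insert_self _ _)
      exact ⟨Finsupp.single x (c a) + b, by
        rw [map_add, hb, pf_single, hx, Finset.sum_insert ha]⟩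
  exact this _ h

/-- a coboundary kills cycles -/
theorem ev_eq_zero_of_mem_Bd {X : SS} {p : ℕ} {f : X.obj (p + 1) → k}
    (hf : (show (SS.F k X).obj (p + 1) from f) ∈ (SS.F k X).Bd (p + 1))
    {c : X.obj (p + 1) →₀ k} (hc : bdy X p c = 0) : ev f c = 0 := by
  obtain ⟨u, rfl⟩ := mem_Bd_succ_iff.1 hf
  rw [← ev_bdy, hc, map_zero]

/-- a simplicial homotopy between self maps induces a prism -/
def prismOf {M : SS} (H : ∀ p, Op p 1 → M.obj p → M.obj p)
    (nat : ∀ {p q : ℕ} (α : Op p q) (θ : Op q 1) (x : M.obj q),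
      M.map α (H q θ x) = H p (θ.comp α) (M.map α x)) : Prism (SS.F k M) (SS.F k M) where
  h p θ :=
    { toFun := fun f x => f (H p θ x)
      map_add' := fun _ _ => rfl
      map_smul' := fun _ _ => rfl }
  nat α θ f := by
    funext x
    show f (M.map α (H _ θ x)) = f (H _ (θ.comp α) (M.map α x))
    rw [nat]

/-- two self maps which are homotopic on each term of a directed union -/
theorem km {M X : SS} (j : ℕ → SS.Map M X) (hj : ∀ n, (j n).Inj)
    (hfin : ∀ p (S : Finset (X.obj p)), ∃ n, ∀ x ∈ S, ∃ m, (j n).app m = x)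
    (RM LM : SS.Map M M) (R L : SS.Map X X)
    (hR : ∀ n p (m : M.obj p), R.app ((j n).app m) = (j n).app (RM.app m))
    (hL : ∀ n p (m : M.obj p), L.app ((j n).app m) = (j n).app (LM.app m))
    (H : ∀ p, Op p 1 → M.obj p → M.obj p)
    (nat : ∀ {p q : ℕ} (α : Op p q) (θ : Op q 1) (x : M.obj q),
      M.map α (H q θ x) = H p (θ.comp α) (M.map α x))
    (h1 : ∀ p x, H p (c1 p) x = RM.app x) (h0 : ∀ p x, H p (c0 p) x = LM.app x)
    (p : ℕ) (f : X.obj p → k) (hf : (show (SS.F k X).obj p from f) ∈ (SS.F k X).Z p) :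
    (show (SS.F k X).obj p from fun x => f (R.app x) - f (L.app x)) ∈ (SS.F k X).Bd p := by
  -- on every copy of `M` the difference is a coboundary
  have hM : ∀ n, (show (SS.F k M).obj p from
      fun m => f ((j n).app (RM.app m)) - f ((j n).app (LM.app m))) ∈ (SS.F k M).Bd p := by
    intro n
    have hz : (show (SS.F k M).obj p from fun m => f ((j n).app m)) ∈ (SS.F k M).Z p := by
      rw [mem_Z_iff] at hf ⊢
      funext m
      refine Eq.trans ?_ (congrFun hf ((j n).app m))
      refine Finset.sum_congr rfl fun i _ => ?_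
      show sn i (f ((j n).app (M.map (dl p i) m))) = _
      rw [(j n).nat]
    have h3 := (prismOf (k := k) H nat).sub_mem hz
    convert h3 using 1
    funext m
    show f ((j n).app (RM.app m)) - f ((j n).app (LM.app m)) =
      f ((j n).app (H p (c1 p) m)) - f ((j n).app (H p (c0 p) m))
    rw [h1, h0]
  have key : ∀ n (b : M.obj p →₀ k),
      ev (X := X) (p := p) (fun x => f (R.app x) - f (L.app x)) (pf (j n) p b) =
      ev (X := M) (p := p) (fun m => f ((j n).app (RM.app m)) - f ((j n).app (LM.app m))) b := by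
    intro n b
    rw [ev_pf]
    congr 2
    funext m
    rw [hR, hL]
  cases p with
  | zero =>
    apply mem_Bd_zero_of_ev
    intro c
    obtain ⟨n, hn⟩ := hfin 0 c.support
    obtain ⟨b, rfl⟩ := mem_range_pf (j n) 0 c hn
    rw [key]
    rw [mem_Bd_zero_iff.1 (hM n)]
    clear hn
    induction b using Finsupp.induction_linear with
    | zero => simp
    | add a b ha hb => rw [map_add, ha, hb, add_zero]
    | single x a => rw [ev_single, Pi.zero_apply, mul_zero]
  | succ p =>
    apply mem_Bd_of_ev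
    intro c hc
    obtain ⟨n, hn⟩ := hfin (p + 1) c.support
    obtain ⟨b, rfl⟩ := mem_range_pf (j n) (p + 1) c hn
    rw [key]
    apply ev_eq_zero_of_mem_Bd (hM n)
    apply pf_injective (j n) (hj n) p
    rw [← bdy_pf, hc, map_zero]

end Vale.Agent.P263.GC
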