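import Vale.Agent.P263.GC.Range

/-!
# P263, block GC: the relative form of the telescope lemma and of the range theorem
-/

namespace Vale.Agent.P263.GC

open Vale.Agent.P263.S Vale.Agent.P263.E Vale.Agent.P263.G

variable {R : Type} [CommRing R]

/-- relative vanishing for a composite of injective maps -/
theorem RelAc.comp {X Y W : SS} {s : SS.Map X Y} {t : SS.Map Y W} (ht : t.Inj) {j : ℕ}
    (h1 : RelAc R s j) (h2 : RelAc R t j) : RelAc R (t.comp s) j := by
  cases j with
  | zero =>
      apply RelAc.of_zero
      intro f hf h0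
      refine h2.zero hf ?_
      exact h1.zero (t.pull.app_mem_Z hf) h0
  | succ j =>
      apply RelAc.of_succ
      intro f hf h0
      obtain ⟨u, hu, hu0⟩ := h1.succ (t.pull.app_mem_Z hf) h0
      obtain ⟨v, hv⟩ := ht.pull_surjective (R := R) j u
      obtain ⟨w, hw, hw0⟩ := h2.succ (f := f - (SS.F R W).d j v)
        (Submodule.sub_mem _ hf (CosMod.Bd_le_Z _ _ (CosMod.d_mem_Bd _ v)))
        (by rw [map_sub, Hom.app_d, hv, hu, sub_self])
      refine ⟨v + w, by rw [map_add, hw, add_sub_cancel], ?_⟩
      show (s.pull (R := R)).app j ((t.pull (R := R)).app j (v + w)) = 0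
      rw [map_add, hv, hw0, add_zero, hu0]

namespace Union

variable (U : Union)

/-- the iterated transition maps -/
theorem relAc_zero {j : ℕ} (h : ∀ n, RelAc R (U.s n) j) : RelAc R (U.i 0) j := by
  cases j with
  | zero =>
      apply RelAc.of_zero
      intro f hf h0
      apply U.ext_T
      intro n
      rw [map_zero]
      induction n with
      | zero => exact h0
      | succ n ih =>
          exact (h n).zero ((U.i (n + 1)).pull.app_mem_Z hf) (by rw [U.pull_i_s, ih])
  | succ j =>
      apply RelAc.of_succ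
      intro f hf h0
      obtain ⟨a, ha0, ha1, ha2⟩ := exists_seq (α := fun n => (SS.F R (U.X n)).obj j)
        (fun n a => (SS.F R (U.X n)).d j a = ((U.i n).pull (R := R)).app (j + 1) f)
        (fun n => ((U.s n).pull (R := R)).app j) 0 (by rw [map_zero, h0])
        (fun n a ha => by
          obtain ⟨v, hv⟩ := (U.s_inj n).pull_surjective (R := R) j a
          obtain ⟨w, hw, hw0⟩ := (h n).succ
            (f := ((U.i (n + 1)).pull (R := R)).app (j + 1) f - (SS.F R (U.X (n + 1))).d j v)
            (Submodule.sub_mem _ ((U.i (n + 1)).pull.app_mem_Z hf)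
              (CosMod.Bd_le_Z _ _ (CosMod.d_mem_Bd _ v)))
            (by rw [map_sub, Hom.app_d, hv, ha, U.pull_i_s, sub_self])
          exact ⟨v + w, by rw [map_add, hw, add_sub_cancel], by rw [map_add, hv, hw0, add_zero]⟩)
      obtain ⟨g, hg'⟩ := U.glueF a ha2
      refine ⟨g, ?_, by rw [hg', ha0]⟩
      apply U.ext_T
      intro n
      rw [Hom.app_d, hg', ha1]

/-- **Telescope lemma**, relative form. -/
theorem relAc {N j : ℕ} (h : ∀ n, N ≤ n → RelAc R (U.s n) j) : RelAc R (U.i N) j :=
  (U.shift N).relAc_zero fun n => h (N + n) (Nat.le_add_right _ _)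

end Union

/-- **The range theorem, relative form**: `H^j(UM0, M(N)) = 0`. -/
theorem range_rel {k : Type} [Field k] (hrel : ∀ j, RelAc k incS j) {N j : ℕ}
    (hs : ∀ n, N ≤ n → RelAc k (sN n) j) : RelAc k (uN N) j :=
  RelAc.comp incU_inj (teleU.relAc hs) (relAc_incU hrel j)

end Vale.Agent.P263.GC
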