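import Vale.Agent.P263.GC.Main
import Vale.Agent.P263.GC.RangeRel
import Vale.Agent.P263.HS.Final
import Vale.Agent.P263.G.TripleUM
import Vale.Agent.P263.G.BarM
import Vale.Agent.P263.TOP.LevelB

/-!
# P263, block GC: `CurtisUM` from the contract

* `isoUpTo_uN` , `conn_UM0` : `Gam N` and the component `UM0` of the group completion of the
  Barratt-Eccles monoid have the same cohomology in degrees `< N / 2`;
* `exists_geo` : a sphere in a space connected with `Gam N` gives a `Geo`;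
* `curtisUM_of_geo` , `curtisUM_of_contract` : the theorem on the group completion follows from
  the contract.
-/

namespace Vale.Agent.P263.GC

open Vale.Agent.P263.S Vale.Agent.P263.E Vale.Agent.P263.G Vale.Agent.P263.TOP
open Vale.Agent.P263.TOP.H

theorem relAc_uN {N j : ℕ} (h : 2 * j ≤ N) : RelAc (ZMod 2) (uN N) j :=
  range_rel relAc_incS fun n hn => HS.relAc_sN (by omega)

theorem isoUpTo_uN {N D : ℕ} (h : 2 * D ≤ N) : IsoUpTo (ZMod 2) D (uN N) :=
  ⟨fun n hn => (injH_iff _ _).1 ((relAc_uN (by omega)).injH (uN_inj N)),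
    fun n hn => (surjH_iff _ _).1 ((relAc_uN (j := n + 1) (by omega)).surjH (uN_inj N))⟩

theorem conn_UM0 {N D : ℕ} (h : 2 * D ≤ N) : Conn (ZMod 2) D (Gam N) UM0 :=
  (Conn.of_map (mnToGam N) (isoUpTo_mnToGam (ZMod 2) N D)).symm.trans
    (Conn.of_map (uN N) (isoUpTo_uN h))

/-- A sphere in a space which is connected with `Gam N`. -/
theorem exists_geo {X A : SS} {d N D : ℕ} (hN : 3 ≤ N) (hD : d + 2 < D)
    (h : Conn (ZMod 2) D (Gam N) X)
    (hA : SphLike (ZMod 2) A d) (fund : Co A d ≃ₗ[ZMod 2] ZMod 2) (α : SS.Map A X) :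
    ∃ G : Geo d N, G.phi = 0 → ∀ y : Co X d, α.pull.mapH d y = 0 := by
  obtain ⟨Z, f, g, hf, hg⟩ := h
  refine ⟨{ hN := hN, Z := Z, A := A, D := d + 2, hD := le_rfl, c := f, a := g.comp α,
            hc := fun j hj => ⟨hf.1 j (by omega), hf.2 j (by omega)⟩, hA := hA, fund := fund },
    fun h0 y => ?_⟩
  obtain ⟨z, rfl⟩ := hg.2 d (by omega) y
  have h1 := (Geo.phi_eq_zero_iff _).1 h0 z
  rw [← h1]
  exact (Hom.mapH_comp _ _ _ _).symm

/-- the theorem on the group completion, from the theorem on `Geo` -/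
theorem curtisUM_of_geo
    (H : ∀ {d k : ℕ} (G : Geo d (2 ^ k)), ¬ (∃ s : ℕ, d + 1 = 2 ^ s) →
      ¬ (∃ s : ℕ, d + 2 = 2 ^ (s + 1)) → G.phi = 0) : CurtisUM := by
  apply curtisUM_of
  intro m h1 h2 α y
  have hk : 2 * (m + 4) ≤ 2 ^ (m + 4) := by
    have : ∀ n : ℕ, 2 * (n + 4) ≤ 2 ^ (n + 4) := by
      intro n
      induction n with
      | zero => norm_num
      | succ n ih =>
          have e : 2 ^ (n + 1 + 4) = 2 * 2 ^ (n + 4) := by ring
          omega
    exact this m
  obtain ⟨G, hG⟩ := exists_geo (d := m + 1) (N := 2 ^ (m + 4)) (D := m + 4) (by omega) (by omega)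
    (conn_UM0 hk) (SP.sphLike (ZMod 2) m) (SP.fund (ZMod 2) m) α
  exact hG (H G h1 h2) y

/-- the theorem on the group completion, from the contract -/
theorem curtisUM_of_contract {M : TowerModel} (K : Contract M) : CurtisUM :=
  curtisUM_of_geo fun G h1 h2 => K.phi_eq_zero G h1 h2

end Vale.Agent.P263.GC
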