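import Vale.Agent.P263.GC.CommM
import Vale.Agent.P263.GC.Defs

/-! # P263, block GC: right and left multiplication by `τ` on `MIs` -/

namespace Vale.Agent.P263.GC

open Vale.Agent.P263.S Vale.Agent.P263.E Vale.Agent.P263.G

/-- **Right and left multiplication by `τ` agree on the cohomology of `M_∞`.** -/
theorem KM (k : Type) [Field k] (q : ℕ) (f : (SS.F k MIs).obj q) (hf : f ∈ (SS.F k MIs).Z q) :
    (rhoM.pull.app q f - lamM.pull.app q f) ∈ (SS.F k MIs).Bd q :=
  kmInf (k := k) q f hf

end Vale.Agent.P263.GC
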