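import Vale.Agent.P263.GC.Abs
import Vale.Agent.P263.GC.CommM
import Vale.Agent.P263.GC.Range

/-!
# P263, block GC: the relative cohomology of `(UM, M_∞)` vanishes

The group completion theorem for the Barratt-Eccles monoid: every cocycle on `UM` which vanishes on
`M_∞ = ⋃ τ⁻ⁿ M` is the coboundary of a cochain which vanishes on `M_∞` (coefficients in a field).
-/

namespace Vale.Agent.P263.GC

open Vale.Agent.P263.S Vale.Agent.P263.E Vale.Agent.P263.G

variable {k : Type}

section ring

variable [CommRing k]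

/-- relative cochains as cochains -/
noncomputable def toF : Hom (FF k 0) (SS.F k UMS) where
  app _ :=
    { toFun := fun f => FF.fn f
      map_add' := fun _ _ => rfl
      map_smul' := fun _ _ => rfl }
  nat _ _ := rfl

theorem toF_inj (q : ℕ) : Function.Injective ((toF (k := k)).app q) := fun _ _ h =>
  FF.ext fun g => congrFun h g

/-- a cochain which vanishes on the telescope -/
theorem exists_toF {q : ℕ} {f : (SS.F k UMS).obj q} (h : (incS.pull (R := k)).app q f = 0) :
    ∃ f' : (FF k 0).obj q, toF.app q f' = f :=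
  ⟨FF.mk0 (fun g => f g) (fun g hg => congrFun h (⟨g, hg⟩ : MInf q)), rfl⟩

theorem incS_toF {q : ℕ} (f : (FF k 0).obj q) : (incS.pull (R := k)).app q (toF.app q f) = 0 := by
  funext x
  exact FF.van f x.2

theorem incS_inj : incS.Inj := fun _ _ _ h => Subtype.ext h

/-- right multiplication by `τ` -/
noncomputable def RU : SS.Map UMS UMS where
  app {p} g := (g * t p : UM p)
  nat {p q} f g := by
    show UM.map f g * t p = UM.map f (g * t q)
    rw [map_mul, map_t]

/-- right multiplication by `τ⁻¹` -/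
noncomputable def RU' : SS.Map UMS UMS where
  app {p} g := (g * (t p)⁻¹ : UM p)
  nat {p q} f g := by
    show UM.map f g * (t p)⁻¹ = UM.map f (g * (t q)⁻¹)
    rw [map_mul, map_inv, map_t]

/-- right multiplication by `τ` on relative cochains -/
noncomputable def rhoA : Hom (FF k 0) (FF k 0) where
  app q :=
    { toFun := fun f => FF.mk0 (fun g => FF.fn f (g * t q)) (fun g hg =>
        FF.van f (MInf.mul hg (M.tau q)))
      map_add' := fun _ _ => rfl
      map_smul' := fun _ _ => rfl }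
  nat {p q} α f := by
    apply FF.ext
    intro g
    show FF.fn f (UM.map α (g * t q)) = FF.fn f (UM.map α g * t p)
    rw [map_mul, map_t]

@[simp] theorem fn_rhoA {q : ℕ} (f : (FF k 0).obj q) (g : UM q) :
    FF.fn (rhoA.app q f) g = FF.fn f (g * t q) := rfl

theorem toF_rhoA {q : ℕ} (f : (FF k 0).obj q) :
    toF.app q (rhoA.app q f) = (RU.pull (R := k)).app q (toF.app q f) := rfl

/-- the unique element of `NB 0` -/
def nb0 : NB 0 := ⟨tauB 0, not_dg_zero _⟩

theorem op0_surj {q : ℕ} (θ : Op q 0) : Function.Surjective θ := fun _ =>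
  ⟨0, Subsingleton.elim (α := Fin 1) _ _⟩

/-- `ρ - 1` is levelwise onto -/
theorem rho_sub_surjective {q : ℕ} (h : (FF k 0).obj q) :
    ∃ f : (FF k 0).obj q, rhoA.app q f - f = h := by
  obtain ⟨f, hf⟩ := FF.gr_surjective (k := k) 0 q (fun _ => ⟨fun _ => h, fun θ hθ =>
    absurd (op0_surj θ) hθ⟩)
  refine ⟨f, ?_⟩
  have h1 := congrArg (fun u : (piCos (NB 0) (Dp 0 (FF k 0))).obj q =>
    (u nb0).1 ⟨fun _ => 0, fun _ _ _ => le_rfl⟩) hf
  have h2 : FF.df f ((M.tau 0).map (fun _ : Fin (q + 1) => (0 : Fin 1))) = h := h1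
  rw [M.map_tau] at h2
  rw [← h2]
  rfl

/-- the kernel of `ρ - 1` -/
theorem rho_sub_exact {q : ℕ} {f : (FF k 0).obj q} (h : rhoA.app q f - f = 0) :
    ∃ f' : (FF k 1).obj q, (FF.incl 0).app q f' = f := by
  apply FF.gr_exact f
  funext c
  apply Subtype.ext
  funext θ
  have e : c.1.1.map θ = M.tau q := by
    rw [B_zero c.1, tauB_val, M.map_tau]
  rw [FF.gr_apply, e]
  exact h

/-- `ρ - 1` is injective on the first possibly nonzero cohomology group -/
theorem rho_sub_injH {j : ℕ} (hC : ∀ i < j, (FF k 0).Z i ≤ (FF k 0).Bd i) {x : (FF k 0).obj j}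
    (hx : x ∈ (FF k 0).Z j) (h : rhoA.app j x - x ∈ (FF k 0).Bd j) : x ∈ (FF k 0).Bd j := by
  have key : ∀ y : (FF k 0).obj j, y ∈ (FF k 0).Z j → rhoA.app j y - y = 0 →
      y ∈ (FF k 0).Bd j := by
    intro y hy h0
    obtain ⟨y', rfl⟩ := rho_sub_exact h0
    have hy' : y' ∈ (FF k 1).Z j := by
      rw [CosMod.mem_Z] at hy ⊢
      rw [← Hom.app_d] at hy
      apply FF.ext
      intro g
      rw [← FF.fn_incl, hy]
      rfl
    exact (FF.incl 0).app_mem_Bd (FF.ac hC le_rfl le_rfl hy')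
  cases j with
  | zero =>
    rw [CosMod.mem_Bd_zero] at h
    exact key x hx h
  | succ j =>
    obtain ⟨u, hu⟩ := h
    obtain ⟨v, hv⟩ := rho_sub_surjective u
    have h1 : x - (FF k 0).d j v ∈ (FF k 0).Bd (j + 1) := by
      apply key
      · exact Submodule.sub_mem _ hx (CosMod.Bd_le_Z _ _ (CosMod.d_mem_Bd _ v))
      · have e : rhoA.app (j + 1) (x - (FF k 0).d j v) - (x - (FF k 0).d j v) =
            (rhoA.app (j + 1) x - x) - (FF k 0).d j (rhoA.app j v - v) := by
          rw [map_sub, map_sub, rhoA.app_d]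
          abel
        rw [e, hv, hu, sub_self]
    have h2 := Submodule.add_mem _ h1 (CosMod.d_mem_Bd _ v)
    rwa [sub_add_cancel] at h2

/-! ### gluing the components -/

/-- glue a family of cochains indexed by the components -/
noncomputable def glue : Hom (piCos ℤ (FF k 0)) (FF k 0) where
  app q :=
    { toFun := fun y => FF.mk0 (fun g => FF.fn (y (UM.dg g)) g) (fun g hg => FF.van _ hg)
      map_add' := fun _ _ => rfl
      map_smul' := fun _ _ => rfl }
  nat {p q} α y := by
    apply FF.ext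
    intro g
    show FF.fn ((FF k 0).map α (y (UM.dg g))) g = FF.fn (y (UM.dg (UM.map α g))) (UM.map α g)
    rw [FF.fn_map, UM.dg_map]

theorem fn_glue {q : ℕ} (y : (piCos ℤ (FF k 0)).obj q) (g : UM q) :
    FF.fn (glue.app q y) g = FF.fn (y (UM.dg g)) g := rfl

theorem pi_mem_Z {ι : Type} {A : CosMod k} {i : ℕ} {x : (piCos ι A).obj i}
    (h : ∀ c, x c ∈ A.Z i) : x ∈ (piCos ι A).Z i := by
  rw [CosMod.mem_Z]
  funext c
  rw [pi_d]
  exact h c

theorem pi_mem_Bd {ι : Type} {A : CosMod k} {i : ℕ} {x : (piCos ι A).obj i}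
    (h : ∀ c, x c ∈ A.Bd i) : x ∈ (piCos ι A).Bd i := by
  cases i with
  | zero =>
    rw [CosMod.mem_Bd_zero]
    funext c
    exact h c
  | succ i =>
    choose y hy using h
    refine ⟨y, ?_⟩
    funext c
    exact (pi_d A i y c).trans (hy c)

end ring

section field

variable [Field k]

/-- extension of coboundaries -/
theorem ext_Bd {i : ℕ} {b : (SS.F k MInfS).obj i} (hb : b ∈ (SS.F k MInfS).Bd i) :
    ∃ b' ∈ (SS.F k UMS).Bd i, (incS.pull (R := k)).app i b' = b := by
  cases i with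
  | zero =>
    rw [CosMod.mem_Bd_zero] at hb
    exact ⟨0, zero_mem _, by rw [map_zero, hb]⟩
  | succ i =>
    obtain ⟨u, rfl⟩ := hb
    obtain ⟨v, hv⟩ := incS_inj.pull_surjective (R := k) i u
    exact ⟨_, CosMod.d_mem_Bd _ v, by rw [Hom.app_d, hv]⟩

/-- right and left multiplication by `τ` agree up to coboundaries -/
theorem RI_sub_LI {i : ℕ} {f : (SS.F k MInfS).obj i} (hf : f ∈ (SS.F k MInfS).Z i) :
    (RI.pull (R := k)).app i f - (LI.pull (R := k)).app i f ∈ (SS.F k MInfS).Bd i :=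
  kmInf i f hf

theorem LI_pull_LI' {i : ℕ} (f : (SS.F k MInfS).obj i) :
    (LI.pull (R := k)).app i ((LI'.pull (R := k)).app i f) = f := by
  funext x
  show f (LI'.app (LI.app x)) = f x
  rw [LI'_LI]

theorem LI'_pull_LI {i : ℕ} (f : (SS.F k MInfS).obj i) :
    (LI'.pull (R := k)).app i ((LI.pull (R := k)).app i f) = f := by
  funext x
  show f (LI.app (LI'.app x)) = f x
  rw [LI_LI']

/-- `ρ` is onto on cohomology, positive degrees -/
theorem rho_surjH_succ {i : ℕ} {x : (FF k 0).obj (i + 1)} (hx : x ∈ (FF k 0).Z (i + 1)) :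
    ∃ y ∈ (FF k 0).Z (i + 1), rhoA.app (i + 1) y - x ∈ (FF k 0).Bd (i + 1) := by
  set r := incS.pull (R := k) with hr
  -- the function `g ↦ x (g τ⁻¹)`
  set y := (RU'.pull (R := k)).app (i + 1) (toF.app (i + 1) x) with hy
  have hyZ : y ∈ (SS.F k UMS).Z (i + 1) := (RU'.pull).app_mem_Z (toF.app_mem_Z hx)
  set z := r.app (i + 1) y with hz
  have hzZ : z ∈ (SS.F k MInfS).Z (i + 1) := r.app_mem_Z hyZ
  have hRz : (RI.pull (R := k)).app (i + 1) z = 0 := by
    funext g
    show FF.fn x ((g.1 * t (i + 1)) * (t (i + 1))⁻¹) = 0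
    rw [mul_inv_cancel_right]
    exact FF.van x g.2
  have h1 := RI_sub_LI hzZ
  rw [hRz, zero_sub] at h1
  have h2 : z ∈ (SS.F k MInfS).Bd (i + 1) := by
    have := (LI'.pull (R := k)).app_mem_Bd (Submodule.neg_mem _ h1)
    rwa [neg_neg, LI'_pull_LI] at this
  obtain ⟨u, hu⟩ := h2
  set w := (RI.pull (R := k)).app i u with hw
  have hwZ : w ∈ (SS.F k MInfS).Z i := by
    rw [CosMod.mem_Z, hw, ← Hom.app_d, hu, hRz]
  set w' := (LI'.pull (R := k)).app i w with hw'
  have hw'Z : w' ∈ (SS.F k MInfS).Z i := (LI'.pull).app_mem_Z hwZ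
  have h3 := RI_sub_LI hw'Z
  rw [hw', LI_pull_LI', ← hw'] at h3
  have h4 : (RI.pull (R := k)).app i (u - w') ∈ (SS.F k MInfS).Bd i := by
    have h7 := Submodule.neg_mem _ h3
    rw [neg_sub] at h7
    have e : (RI.pull (R := k)).app i (u - w') = w - (RI.pull (R := k)).app i w' := map_sub _ _ _
    rw [e]
    exact h7
  obtain ⟨b, hb, hbr⟩ := ext_Bd h4
  obtain ⟨v, hv⟩ := incS_inj.pull_surjective (R := k) i (u - w')
  have h5 : r.app (i + 1) (y - (SS.F k UMS).d i v) = 0 := by
    rw [map_sub, Hom.app_d, hv, map_sub, hu, CosMod.mem_Z.1 hw'Z, sub_zero]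
    exact sub_self _
  obtain ⟨y2, hy2⟩ := exists_toF h5
  have h6 : r.app i ((RU.pull (R := k)).app i v - b) = 0 := by
    rw [map_sub, hbr, ← hv]
    exact sub_self _
  obtain ⟨v2, hv2⟩ := exists_toF h6
  refine ⟨y2, ?_, ?_⟩
  · rw [CosMod.mem_Z]
    apply toF_inj
    rw [Hom.app_d, hy2, map_sub, CosMod.mem_Z.1 hyZ, CosMod.d_d, sub_zero, map_zero]
  · refine ⟨- v2, ?_⟩
    apply toF_inj
    rw [Hom.app_d, map_neg, map_neg, hv2, map_sub, map_sub, toF_rhoA, hy2, map_sub]
    have e1 : (RU.pull (R := k)).app (i + 1) y = toF.app (i + 1) x := by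
      funext g
      show FF.fn x ((g * t (i + 1)) * (t (i + 1))⁻¹) = FF.fn x g
      rw [mul_inv_cancel_right]
    have e2 : (SS.F k UMS).d i b = 0 := CosMod.Bd_le_Z _ _ hb
    rw [e1, e2, Hom.app_d]
    abel

/-- in degree `0` there is nothing -/
theorem rel_zero (x : (FF k 0).obj 0) : x = 0 := by
  apply FF.ext
  intro g
  rw [FF.van x (by rw [MInf_zero]; trivial)]
  rfl

/-- `ρ` is onto on cohomology -/
theorem rho_surjH {j : ℕ} {x : (FF k 0).obj j} (hx : x ∈ (FF k 0).Z j) :
    ∃ y ∈ (FF k 0).Z j, rhoA.app j y - x ∈ (FF k 0).Bd j := by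
  cases j with
  | zero =>
    refine ⟨x, hx, ?_⟩
    rw [rel_zero (rhoA.app 0 x - x)]
    exact zero_mem _
  | succ i => exact rho_surjH_succ hx

/-- **The relative cohomology of `(UM, M_∞)` vanishes.** -/
theorem rel_ac (j : ℕ) : (FF k 0).Z j ≤ (FF k 0).Bd j := by
  induction j using Nat.strong_induction_on with
  | _ j hC =>
  intro x hx
  choose s hsZ hs using fun (y : (FF k 0).Z j) => rho_surjH y.2
  let s' : (FF k 0).Z j → (FF k 0).Z j := fun y => ⟨s y, hsZ y⟩
  let r' : (FF k 0).Z j → (FF k 0).Z j := fun y => ⟨rhoA.app j y.1, rhoA.app_mem_Z y.2⟩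
  -- the two-sided sequence
  let Y : ℤ → (FF k 0).Z j := fun m =>
    if 0 ≤ m then s'^[m.toNat] ⟨x, hx⟩ else r'^[(-m).toNat] ⟨x, hx⟩
  have hY0 : Y 0 = ⟨x, hx⟩ := rfl
  have hY : ∀ m : ℤ, rhoA.app j (Y (m + 1)).1 - (Y m).1 ∈ (FF k 0).Bd j := by
    intro m
    rcases lt_or_ge m 0 with hm | hm
    · have e : Y m = r' (Y (m + 1)) := by
        rcases lt_or_ge (m + 1) 0 with hm1 | hm1
        · show (if 0 ≤ m then _ else _) = r' (if 0 ≤ m + 1 then _ else _)
          rw [if_neg (by omega), if_neg (by omega), ← Function.iterate_succ_apply' r']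
          congr 1
          omega
        · obtain rfl : m = -1 := by omega
          rfl
      rw [e]
      show rhoA.app j (Y (m + 1)).1 - rhoA.app j (Y (m + 1)).1 ∈ _
      rw [sub_self]
      exact zero_mem _
    · have e : Y (m + 1) = s' (Y m) := by
        show (if 0 ≤ m + 1 then _ else _) = s' (if 0 ≤ m then _ else _)
        rw [if_pos (by omega), if_pos hm, ← Function.iterate_succ_apply' s']
        congr 1
        omega
      rw [e]
      exact hs (Y m)
  -- each component of `x` is the component of a coboundary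
  have key : ∀ n : ℤ, ∃ b ∈ (FF k 0).Bd j, ∀ g : UM j, UM.dg g = n → FF.fn b g = FF.fn x g := by
    intro n
    refine ⟨glue.app j (fun m => (Y (m - n)).1), ?_, ?_⟩
    · apply rho_sub_injH hC
      · exact glue.app_mem_Z (pi_mem_Z fun m => (Y (m - n)).2)
      · have e : rhoA.app j (glue.app j (fun m => (Y (m - n)).1)) -
            glue.app j (fun m => (Y (m - n)).1) =
            glue.app j (fun m => rhoA.app j (Y (m - n + 1)).1 - (Y (m - n)).1) := by
          apply FF.ext
          intro g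
          show FF.fn (Y (UM.dg (g * t j) - n)).1 (g * t j) - FF.fn (Y (UM.dg g - n)).1 g =
            FF.fn (Y (UM.dg g - n + 1)).1 (g * t j) - FF.fn (Y (UM.dg g - n)).1 g
          rw [UM.dg_mul, dg_t, show UM.dg g + 1 - n = UM.dg g - n + 1 by ring]
        rw [e]
        exact glue.app_mem_Bd (pi_mem_Bd fun m => hY (m - n))
    · intro g hg
      show FF.fn (Y (UM.dg g - n)).1 g = FF.fn x g
      rw [hg, sub_self, hY0]
  choose b hb hbx using key
  have e : x = glue.app j b := by
    apply FF.ext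
    intro g
    exact (hbx _ g rfl).symm
  rw [e]
  exact glue.app_mem_Bd (pi_mem_Bd hb)

/-- the same in the language of relative vanishing -/
theorem relAc_incS (j : ℕ) : RelAc k incS j := by
  cases j with
  | zero =>
    apply RelAc.of_zero
    intro f _ h0
    obtain ⟨f', rfl⟩ := exists_toF h0
    rw [rel_zero f', map_zero]
  | succ j =>
    apply RelAc.of_succ
    intro f hf h0
    obtain ⟨f', rfl⟩ := exists_toF h0
    have hf' : f' ∈ (FF k 0).Z (j + 1) := by
      rw [CosMod.mem_Z] at hf ⊢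
      apply toF_inj
      rw [Hom.app_d, hf, map_zero]
    obtain ⟨u, rfl⟩ := rel_ac (j + 1) hf'
    exact ⟨toF.app j u, (Hom.app_d _ _ _).symm, incS_toF u⟩

end field

end Vale.Agent.P263.GC
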