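import Mathlib.LinearAlgebra.FiniteDimensional.Lemmas
import Mathlib.LinearAlgebra.Dimension.Constructions
import Vale.Agent.P263.E.Simp

/-!
# P263, block GC: the telescope lemma in cochain form

`X(0) → X(1) → ..` injective simplicial maps with union `X`.  If `H^j(X(n+1)) → H^j(X(n))` is
bijective and `H^(j-1)(X(n+1)) → H^(j-1)(X(n))` is onto for all `n ≥ N`, then `H^j(X) → H^j(X(N))` is
bijective.
-/

namespace Vale.Agent.P263.GC

open Vale.Agent.P263.S Vale.Agent.P263.E

variable {R : Type} [CommRing R]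

/-! ### one injective map -/

section one

variable {X Y : SS}

/-- `H^j(Y) → H^j(X)` is injective -/
def InjH (R : Type) [CommRing R] (s : SS.Map X Y) (j : ℕ) : Prop :=
  ∀ f ∈ (SS.F R Y).Z j, (s.pull (R := R)).app j f ∈ (SS.F R X).Bd j → f ∈ (SS.F R Y).Bd j

/-- `H^j(Y) → H^j(X)` is surjective -/
def SurjH (R : Type) [CommRing R] (s : SS.Map X Y) (j : ℕ) : Prop :=
  ∀ f ∈ (SS.F R X).Z j, ∃ g ∈ (SS.F R Y).Z j,
    (s.pull (R := R)).app j g - f ∈ (SS.F R X).Bd j

theorem injH_iff (s : SS.Map X Y) (j : ℕ) :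
    InjH R s j ↔ Function.Injective ((s.pull (R := R)).mapH j) := by
  constructor
  · intro h
    rw [injective_iff_map_eq_zero]
    intro x hx
    obtain ⟨z, rfl⟩ := CosMod.cls_surjective _ j x
    rw [Hom.mapH_cls, CosMod.cls_eq_zero_iff] at hx
    exact CosMod.cls_eq_zero_iff.2 (h z z.2 hx)
  · intro h f hf hb
    have := (injective_iff_map_eq_zero _).1 h ((SS.F R Y).cls j ⟨f, hf⟩)
      (by rw [Hom.mapH_cls, CosMod.cls_eq_zero_iff]; exact hb)
    exact CosMod.cls_eq_zero_iff.1 this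

theorem surjH_iff (s : SS.Map X Y) (j : ℕ) :
    SurjH R s j ↔ Function.Surjective ((s.pull (R := R)).mapH j) := by
  constructor
  · intro h x
    obtain ⟨z, rfl⟩ := CosMod.cls_surjective _ j x
    obtain ⟨g, hg, hb⟩ := h z z.2
    refine ⟨(SS.F R Y).cls j ⟨g, hg⟩, ?_⟩
    rw [Hom.mapH_cls, CosMod.cls_eq_iff]
    exact hb
  · intro h f hf
    obtain ⟨y, hy⟩ := h ((SS.F R X).cls j ⟨f, hf⟩)
    obtain ⟨z, rfl⟩ := CosMod.cls_surjective _ j y
    rw [Hom.mapH_cls, CosMod.cls_eq_iff] at hy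
    exact ⟨z, z.2, hy⟩

/-- for an injective map cocycles extend exactly -/
theorem SurjH.exact {s : SS.Map X Y} (hs : s.Inj) {j : ℕ} (h : SurjH R s j)
    {f : (SS.F R X).obj j} (hf : f ∈ (SS.F R X).Z j) :
    ∃ g ∈ (SS.F R Y).Z j, (s.pull (R := R)).app j g = f := by
  obtain ⟨g, hg, hb⟩ := h f hf
  cases j with
  | zero =>
      rw [CosMod.mem_Bd_zero, sub_eq_zero] at hb
      exact ⟨g, hg, hb⟩
  | succ j =>
      obtain ⟨u, hu⟩ := hb
      obtain ⟨v, hv⟩ := hs.pull_surjective (R := R) j u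
      refine ⟨g - (SS.F R Y).d j v, ?_, ?_⟩
      · exact Submodule.sub_mem _ hg (CosMod.Bd_le_Z _ _ (CosMod.d_mem_Bd _ v))
      · rw [map_sub, Hom.app_d, hv, hu]
        exact sub_sub_cancel _ _

/-- relative form: primitives extend exactly -/
theorem prim_exact {s : SS.Map X Y} (hs : s.Inj) {j : ℕ} (h1 : InjH R s (j + 1))
    (h2 : SurjH R s j) {f : (SS.F R Y).obj (j + 1)} (hf : f ∈ (SS.F R Y).Z (j + 1))
    {u : (SS.F R X).obj j} (hu : (SS.F R X).d j u = (s.pull (R := R)).app (j + 1) f) :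
    ∃ v : (SS.F R Y).obj j, (SS.F R Y).d j v = f ∧ (s.pull (R := R)).app j v = u := by
  obtain ⟨v0, hv0⟩ := h1 f hf ⟨u, hu⟩
  have hc : (s.pull (R := R)).app j v0 - u ∈ (SS.F R X).Z j := by
    rw [CosMod.mem_Z, map_sub, ← Hom.app_d, hv0, hu, sub_self]
  obtain ⟨w, hw, hwe⟩ := h2.exact hs hc
  refine ⟨v0 - w, ?_, ?_⟩
  · rw [map_sub, hv0, CosMod.mem_Z.1 hw, sub_zero]
  · rw [map_sub, hwe, sub_sub_cancel]

end one

/-! ### dependent sequences -/

theorem exists_seq {α : ℕ → Type} (P : ∀ n, α n → Prop) (r : ∀ n, α (n + 1) → α n) (a0 : α 0)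
    (h0 : P 0 a0) (h : ∀ n a, P n a → ∃ b, P (n + 1) b ∧ r n b = a) :
    ∃ a : ∀ n, α n, a 0 = a0 ∧ (∀ n, P n (a n)) ∧ ∀ n, r n (a (n + 1)) = a n := by
  classical
  let F : ∀ n, {a : α n // P n a} := fun n =>
    Nat.rec (motive := fun n => {a : α n // P n a}) ⟨a0, h0⟩
      (fun n x => ⟨(h n x.1 x.2).choose, (h n x.1 x.2).choose_spec.1⟩) n
  exact ⟨fun n => (F n).1, rfl, fun n => (F n).2, fun n => (h n (F n).1 (F n).2).choose_spec.2⟩

/-! ### the union -/

/-- An increasing union of simplicial sets. -/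
structure Union where
  /-- the stages -/
  X : ℕ → SS
  /-- the union -/
  T : SS
  /-- the transition maps -/
  s : ∀ n, SS.Map (X n) (X (n + 1))
  /-- the maps into the union -/
  i : ∀ n, SS.Map (X n) T
  i_s : ∀ n p (x : (X n).obj p), (i (n + 1)).app ((s n).app x) = (i n).app x
  i_inj : ∀ n, (i n).Inj
  union : ∀ p (x : T.obj p), ∃ n, ∃ y : (X n).obj p, (i n).app y = x

namespace Union

variable (U : Union)

theorem s_inj (n : ℕ) : (U.s n).Inj := by
  intro p x y h
  exact U.i_inj n p ((U.i_s n p x).symm.trans ((congrArg _ h).trans (U.i_s n p y)))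

/-- compatible families of functions agree along the filtration -/
theorem fam {p : ℕ} {V : Type} (f : ∀ n, (U.X n).obj p → V)
    (hf : ∀ n x, f (n + 1) ((U.s n).app x) = f n x) {n m : ℕ} (x : (U.X n).obj p)
    (y : (U.X m).obj p) (h : (U.i n).app x = (U.i m).app y) : f n x = f m y := by
  have key : ∀ k n (x : (U.X n).obj p), ∃ x' : (U.X (n + k)).obj p,
      (U.i (n + k)).app x' = (U.i n).app x ∧ f (n + k) x' = f n x := by
    intro k n x
    induction k with
    | zero => exact ⟨x, rfl, rfl⟩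
    | succ k ih =>
        obtain ⟨x', h1, h2⟩ := ih
        exact ⟨(U.s (n + k)).app x', by rw [← h1]; exact U.i_s _ _ _, by rw [← h2]; exact hf _ _⟩
  obtain ⟨x', h1, h2⟩ := key m n x
  obtain ⟨y', h3, h4⟩ := key n m y
  rw [← h2, ← h4]
  have e : n + m = m + n := add_comm n m
  clear h2 h4
  revert x' h1
  rw [e]
  intro x' h1
  rw [U.i_inj (m + n) p (h1.trans (h.trans h3.symm))]

/-- glueing of compatible families -/
theorem glue {p : ℕ} {V : Type} (f : ∀ n, (U.X n).obj p → V)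
    (hf : ∀ n x, f (n + 1) ((U.s n).app x) = f n x) :
    ∃ F : U.T.obj p → V, ∀ n x, F ((U.i n).app x) = f n x := by
  classical
  refine ⟨fun x => f (U.union p x).choose (U.union p x).choose_spec.choose, fun n x => ?_⟩
  exact U.fam f hf _ _ (U.union p ((U.i n).app x)).choose_spec.choose_spec

theorem glueF {j : ℕ} (a : ∀ n, (SS.F R (U.X n)).obj j)
    (h : ∀ n, ((U.s n).pull (R := R)).app j (a (n + 1)) = a n) :
    ∃ g : (SS.F R U.T).obj j, ∀ n, ((U.i n).pull (R := R)).app j g = a n := by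
  obtain ⟨g, hg⟩ := U.glue (V := R) (p := j) a (fun n x => congrFun (h n) x)
  exact ⟨g, fun n => funext fun x => hg n x⟩

theorem pull_i_s (n j : ℕ) (f : (SS.F R U.T).obj j) :
    ((U.s n).pull (R := R)).app j (((U.i (n + 1)).pull (R := R)).app j f) =
      ((U.i n).pull (R := R)).app j f := by
  funext x
  show f ((U.i (n + 1)).app ((U.s n).app x)) = f ((U.i n).app x)
  rw [U.i_s]

theorem ext_T {j : ℕ} {f g : (SS.F R U.T).obj j}
    (h : ∀ n, ((U.i n).pull (R := R)).app j f = ((U.i n).pull (R := R)).app j g) : f = g := by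
  funext x
  obtain ⟨n, y, rfl⟩ := U.union j x
  exact congrFun (h n) y

/-- surjectivity: every cocycle of the stage `0` extends to the union -/
theorem surj {j : ℕ} (h : ∀ n, SurjH R (U.s n) j) {f : (SS.F R (U.X 0)).obj j}
    (hf : f ∈ (SS.F R (U.X 0)).Z j) :
    ∃ g ∈ (SS.F R U.T).Z j, ((U.i 0).pull (R := R)).app j g = f := by
  obtain ⟨a, h0, h1, h2⟩ := exists_seq (α := fun n => (SS.F R (U.X n)).obj j)
    (fun n a => a ∈ (SS.F R (U.X n)).Z j) (fun n => ((U.s n).pull (R := R)).app j) f hf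
    (fun n a ha => (h n).exact (U.s_inj n) ha)
  obtain ⟨g, hg'⟩ := U.glueF a h2
  refine ⟨g, ?_, by rw [hg', h0]⟩
  rw [CosMod.mem_Z]
  apply U.ext_T
  intro n
  rw [Hom.app_d, hg', map_zero]
  exact h1 n

/-- injectivity in positive degrees -/
theorem inj_succ {j : ℕ} (h1 : ∀ n, InjH R (U.s n) (j + 1)) (h2 : ∀ n, SurjH R (U.s n) j)
    {f : (SS.F R U.T).obj (j + 1)} (hf : f ∈ (SS.F R U.T).Z (j + 1))
    (h0 : ((U.i 0).pull (R := R)).app (j + 1) f ∈ (SS.F R (U.X 0)).Bd (j + 1)) :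
    f ∈ (SS.F R U.T).Bd (j + 1) := by
  obtain ⟨u0, hu0⟩ := h0
  obtain ⟨a, _, h1', h2'⟩ := exists_seq (α := fun n => (SS.F R (U.X n)).obj j)
    (fun n a => (SS.F R (U.X n)).d j a = ((U.i n).pull (R := R)).app (j + 1) f)
    (fun n => ((U.s n).pull (R := R)).app j) u0 hu0
    (fun n a ha => prim_exact (U.s_inj n) (h1 n) (h2 n) ((U.i (n + 1)).pull.app_mem_Z hf)
      (by rw [ha, U.pull_i_s]))
  obtain ⟨g, hg'⟩ := U.glueF a h2'
  refine ⟨g, ?_⟩
  apply U.ext_T
  intro n
  rw [Hom.app_d, hg', h1']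

/-- injectivity in degree zero -/
theorem inj_zero (h1 : ∀ n, InjH R (U.s n) 0) {f : (SS.F R U.T).obj 0}
    (hf : f ∈ (SS.F R U.T).Z 0)
    (h0 : ((U.i 0).pull (R := R)).app 0 f ∈ (SS.F R (U.X 0)).Bd 0) :
    f ∈ (SS.F R U.T).Bd 0 := by
  rw [CosMod.mem_Bd_zero]
  apply U.ext_T
  intro n
  rw [map_zero]
  induction n with
  | zero => exact CosMod.mem_Bd_zero.1 h0
  | succ n ih =>
      refine CosMod.mem_Bd_zero.1 (h1 n _ ((U.i (n + 1)).pull.app_mem_Z hf) ?_)
      rw [U.pull_i_s, ih]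
      exact CosMod.mem_Bd_zero.2 rfl

theorem reach {p : ℕ} (n k : ℕ) (x : (U.X n).obj p) : ∀ m, m = n + k →
    ∃ x' : (U.X m).obj p, (U.i m).app x' = (U.i n).app x := by
  rintro _ rfl
  induction k with
  | zero => exact ⟨x, rfl⟩
  | succ k ih =>
      obtain ⟨x', h1⟩ := ih
      exact ⟨(U.s (n + k)).app x', by rw [← h1]; exact U.i_s _ _ _⟩

/-- drop the first `N` stages -/
def shift (N : ℕ) : Union where
  X n := U.X (N + n)
  T := U.T
  s n := U.s (N + n)
  i n := U.i (N + n)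
  i_s n := U.i_s (N + n)
  i_inj n := U.i_inj (N + n)
  union p x := by
    obtain ⟨n, y, rfl⟩ := U.union p x
    exact ⟨n, U.reach n N y (N + n) (add_comm _ _)⟩

/-- **Telescope lemma**, surjectivity. -/
theorem surjH {N j : ℕ} (h : ∀ n, N ≤ n → SurjH R (U.s n) j) : SurjH R (U.i N) j := by
  intro f hf
  obtain ⟨g, hg, he⟩ := (U.shift N).surj (fun n => h (N + n) (Nat.le_add_right _ _)) hf
  exact ⟨g, hg, by
    have : ((U.i N).pull (R := R)).app j g = f := he
    rw [this, sub_self]; exact zero_mem _⟩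

/-- **Telescope lemma**, injectivity. -/
theorem injH {N j : ℕ} (h1 : ∀ n, N ≤ n → InjH R (U.s n) j)
    (h2 : ∀ n, N ≤ n → ∀ j', j' + 1 = j → SurjH R (U.s n) j') : InjH R (U.i N) j := by
  intro f hf hb
  cases j with
  | zero => exact (U.shift N).inj_zero (fun n => h1 (N + n) (Nat.le_add_right _ _)) hf hb
  | succ j =>
      exact (U.shift N).inj_succ (fun n => h1 (N + n) (Nat.le_add_right _ _))
        (fun n => h2 (N + n) (Nat.le_add_right _ _) j rfl) hf hb

/-- **Telescope lemma.** -/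
theorem bij {N j : ℕ} (h1 : ∀ n, N ≤ n → Function.Bijective (((U.s n).pull (R := R)).mapH j))
    (h2 : ∀ n, N ≤ n → ∀ j', j' + 1 = j →
      Function.Surjective (((U.s n).pull (R := R)).mapH j')) :
    Function.Bijective (((U.i N).pull (R := R)).mapH j) :=
  ⟨(injH_iff _ _).1 (U.injH (fun n hn => (injH_iff _ _).2 (h1 n hn).1)
      (fun n hn j' hj' => (surjH_iff _ _).2 (h2 n hn j' hj'))),
    (surjH_iff _ _).1 (U.surjH fun n hn => (surjH_iff _ _).2 (h1 n hn).2)⟩

end Union

/-! ### finite dimensions -/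

/-- a sequence of natural numbers which is eventually non-increasing is eventually constant -/
theorem ev_const (a : ℕ → ℕ) (n0 : ℕ) (h : ∀ n, n0 ≤ n → a (n + 1) ≤ a n) :
    ∃ N, n0 ≤ N ∧ ∀ n, N ≤ n → a (n + 1) = a n := by
  by_contra hc
  push Not at hc
  have key : ∀ k, ∃ n, n0 ≤ n ∧ a n + k ≤ a n0 := by
    intro k
    induction k with
    | zero => exact ⟨n0, le_rfl, le_rfl⟩
    | succ k ih =>
        obtain ⟨n, hn, hk⟩ := ih
        obtain ⟨m, hm, hne⟩ := hc n hn
        have mono : ∀ i, a (n + i) ≤ a n := by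
          intro i
          induction i with
          | zero => exact le_rfl
          | succ i ih => exact (h (n + i) (by omega)).trans ih
        have h1 := mono (m - n)
        rw [Nat.add_sub_cancel' hm] at h1
        have h2 := h m (by omega)
        exact ⟨m + 1, by omega, by omega⟩
  obtain ⟨n, _, hn⟩ := key (a n0 + 1)
  omega

/-- injective maps between finite dimensional spaces are eventually bijective -/
theorem ev_bij {k : Type} [Field k] (V : ℕ → Type) [∀ n, AddCommGroup (V n)]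
    [∀ n, Module k (V n)] [∀ n, FiniteDimensional k (V n)] (f : ∀ n, V (n + 1) →ₗ[k] V n)
    (n0 : ℕ) (h : ∀ n, n0 ≤ n → Function.Injective (f n)) :
    ∃ N, n0 ≤ N ∧ ∀ n, N ≤ n → Function.Bijective (f n) := by
  obtain ⟨N, h1, h2⟩ := ev_const (fun n => Module.finrank k (V n)) n0
    (fun n hn => LinearMap.finrank_le_finrank_of_injective (h n hn))
  refine ⟨N, h1, fun n hn => ⟨h n (h1.trans hn), ?_⟩⟩
  exact (LinearMap.injective_iff_surjective_of_finrank_eq_finrank (h2 n hn)).1 (h n (h1.trans hn))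

/-- the cohomology of a levelwise finite simplicial set is finite dimensional -/
instance finH {k : Type} [Field k] (X : SS) (j : ℕ) [Finite (X.obj j)] :
    FiniteDimensional k ((SS.F k X).H j) := by
  have : FiniteDimensional k ((SS.F k X).obj j) := by
    show FiniteDimensional k (X.obj j → k)
    infer_instance
  infer_instance

end Vale.Agent.P263.GC
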